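import Mathlib

/-! Blow-up limits of sums of squares taken from a finite-dimensional space of power series are
sums of squares of polynomials. -/

namespace Vale.Agent.P256

open MvPolynomial Filter Topology Finset.HasAntidiagonal

variable {ι : Type} [Fintype ι]

/-- Homogeneous component of a power series, as a polynomial. -/
noncomputable def hc (j : ℕ) : MvPowerSeries ι ℝ →ₗ[ℝ] MvPolynomial ι ℝ :=
  (homogeneousComponent j).comp (MvPowerSeries.truncTotal (j + 1))

theorem coeff_hc (j : ℕ) (g : MvPowerSeries ι ℝ) (m : ι →₀ ℕ) :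
    coeff m (hc j g) = if m.degree = j then MvPowerSeries.coeff m g else 0 := by
  simp only [hc, LinearMap.comp_apply, coeff_homogeneousComponent]
  split_ifs with h
  · exact MvPowerSeries.coeff_truncTotal _ (by omega)
  · rfl

theorem hc_homog (j : ℕ) (g : MvPowerSeries ι ℝ) : (hc j g).IsHomogeneous j :=
  homogeneousComponent_isHomogeneous _ _

theorem hc_coe (j : ℕ) (f : MvPolynomial ι ℝ) : hc j (f : MvPowerSeries ι ℝ) =
    homogeneousComponent j f := by
  ext m
  rw [coeff_hc, coeff_homogeneousComponent, coeff_coe]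

theorem hc_mul (j : ℕ) (g h : MvPowerSeries ι ℝ) :
    hc j (g * h) = ∑ p ∈ antidiagonal j, hc p.1 g * hc p.2 h := by
  classical
  ext m
  rw [coeff_hc, coeff_sum, MvPowerSeries.coeff_mul]
  simp only [coeff_mul, coeff_hc]
  rw [Finset.sum_comm]
  have key : ∀ q ∈ antidiagonal m, ∑ p ∈ antidiagonal j,
      (if q.1.degree = p.1 then MvPowerSeries.coeff q.1 g else 0) *
        (if q.2.degree = p.2 then MvPowerSeries.coeff q.2 h else 0) =
      if m.degree = j then MvPowerSeries.coeff q.1 g * MvPowerSeries.coeff q.2 h else 0 := by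
    intro q hq
    have hm : m.degree = q.1.degree + q.2.degree := by
      rw [← mem_antidiagonal.1 hq, map_add]
    by_cases hj : m.degree = j
    · rw [Finset.sum_eq_single (q.1.degree, q.2.degree)]
      · simp [hj]
      · rintro ⟨a, b⟩ _ hne
        by_cases h1 : q.1.degree = a
        · have h2 : q.2.degree ≠ b := fun h2 => hne (by rw [h1, h2])
          simp [h2]
        · simp [h1]
      · intro hnot
        exact absurd (mem_antidiagonal.2 (by rw [← hj, hm])) hnot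
    · rw [if_neg hj]
      apply Finset.sum_eq_zero
      rintro ⟨a, b⟩ hab
      have hab' : a + b = j := mem_antidiagonal.1 hab
      by_cases h1 : q.1.degree = a
      · have h2 : q.2.degree ≠ b := fun h2 => hj (by omega)
        simp [h2]
      · simp [h1]
  rw [Finset.sum_congr rfl key]
  split_ifs <;> simp

omit [Fintype ι] in
theorem eval_smul_homog {q : MvPolynomial ι ℝ} {j : ℕ} (hq : q.IsHomogeneous j) (c : ℝ)
    (x : ι → ℝ) : eval (c • x) q = c ^ j * eval x q := by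
  rw [eval_eq, eval_eq, Finset.mul_sum]
  refine Finset.sum_congr rfl fun m hm => ?_
  have h1 : ∑ i ∈ m.support, m i = j := by
    have := hq (mem_support_iff.1 hm)
    rw [← this]
    simp [Finsupp.weight_apply, Finsupp.sum]
  simp only [Pi.smul_apply, smul_eq_mul, mul_pow, Finset.prod_mul_distrib,
    Finset.prod_pow_eq_pow_sum, h1]
  ring

/-- Restriction of polynomial functions to the unit ball. -/
noncomputable def res : MvPolynomial ι ℝ →ₗ[ℝ] C(Metric.closedBall (0 : ι → ℝ) 1, ℝ) where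
  toFun q := ⟨fun x => eval x.1 q, (MvPolynomial.continuous_eval q).comp continuous_subtype_val⟩
  map_add' p q := by ext x; simp
  map_smul' c q := by ext x; simp

theorem abs_eval_le {q : MvPolynomial ι ℝ} {j : ℕ} (hq : q.IsHomogeneous j) (x : ι → ℝ)
    {R : ℝ} (hx : ‖x‖ ≤ R) : |eval x q| ≤ R ^ j * ‖res q‖ := by
  have hR : 0 ≤ R := (norm_nonneg x).trans hx
  rcases hR.lt_or_eq with h | h
  · have hmem : R⁻¹ • x ∈ Metric.closedBall (0 : ι → ℝ) 1 := by
      rw [mem_closedBall_zero_iff, norm_smul, norm_inv, Real.norm_of_nonneg hR,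
        inv_mul_le_iff₀ h]
      simpa using hx
    have h1 := (res q).norm_coe_le_norm ⟨_, hmem⟩
    have h2 : eval x q = R ^ j * eval (R⁻¹ • x) q := by
      rw [← eval_smul_homog hq, smul_smul, mul_inv_cancel₀ h.ne', one_smul]
    rw [h2, abs_mul, abs_of_nonneg (pow_nonneg hR j)]
    exact mul_le_mul_of_nonneg_left h1 (pow_nonneg hR j)
  · subst h
    have hx0 : x = 0 := norm_le_zero_iff.1 hx
    have h1 := (res q).norm_coe_le_norm ⟨0, by simp⟩
    have h2 : eval x q = (0 : ℝ) ^ j * eval 0 q := by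
      rw [← eval_smul_homog hq, hx0, zero_smul]
    rw [h2, abs_mul, abs_of_nonneg (pow_nonneg le_rfl j)]
    exact mul_le_mul_of_nonneg_left h1 (pow_nonneg le_rfl j)

/-- Linear substitution. -/
noncomputable def lsub [DecidableEq ι] (φ : (ι → ℝ) →ₗ[ℝ] (ι → ℝ)) :
    MvPolynomial ι ℝ →ₐ[ℝ] MvPolynomial ι ℝ :=
  aeval fun i => ∑ j, C (φ (Pi.single j 1) i) * X j

theorem eval_lsub [DecidableEq ι] (φ : (ι → ℝ) →ₗ[ℝ] (ι → ℝ)) (q : MvPolynomial ι ℝ)
    (x : ι → ℝ) : eval x (lsub φ q) = eval (φ x) q := by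
  have : (fun i => eval x (∑ j, C (φ (Pi.single j 1) i) * X j : MvPolynomial ι ℝ)) = φ x := by
    funext i
    conv_rhs => rw [pi_eq_sum_univ' x]
    simp [mul_comm]
  rw [← this]
  exact eval₂Hom_bind₁ (RingHom.id ℝ) x _ q

theorem lsub_homog [DecidableEq ι] (φ : (ι → ℝ) →ₗ[ℝ] (ι → ℝ)) {q : MvPolynomial ι ℝ} {j : ℕ}
    (hq : q.IsHomogeneous j) : (lsub φ q).IsHomogeneous j := by
  have := hq.aeval (fun i => ∑ j, C (φ (Pi.single j 1) i) * X j : ι → MvPolynomial ι ℝ) (n := 1)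
    fun i => IsHomogeneous.sum _ _ _ fun j _ => isHomogeneous_C_mul_X _ _
  simpa [lsub] using this

theorem norm_lsub_le [DecidableEq ι] (φ : (ι → ℝ) →ₗ[ℝ] (ι → ℝ)) {q : MvPolynomial ι ℝ} {j : ℕ}
    (hq : q.IsHomogeneous j) {ε : ℝ} (hε : 0 ≤ ε) (hφ : ∀ t, ‖φ t‖ ≤ ε * ‖t‖) :
    ‖res (lsub φ q)‖ ≤ ε ^ j * ‖res q‖ := by
  rw [ContinuousMap.norm_le _ (by positivity)]
  rintro ⟨x, hx⟩
  change ‖eval x (lsub φ q)‖ ≤ _
  rw [eval_lsub]
  refine abs_eval_le hq _ ((hφ x).trans ?_)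
  exact mul_le_of_le_one_right hε (mem_closedBall_zero_iff.1 hx)

theorem norm_le_lsub [DecidableEq ι] (φ : (ι → ℝ) →ₗ[ℝ] (ι → ℝ)) {q : MvPolynomial ι ℝ} {j : ℕ}
    (hq : q.IsHomogeneous j) {R : ℝ} (hR : 0 ≤ R) (hφ : ∀ δ, ∃ t, φ t = δ ∧ ‖t‖ ≤ R * ‖δ‖) :
    ‖res q‖ ≤ R ^ j * ‖res (lsub φ q)‖ := by
  rw [ContinuousMap.norm_le _ (by positivity)]
  rintro ⟨x, hx⟩
  obtain ⟨t, ht, ht'⟩ := hφ x
  change ‖eval x q‖ ≤ _
  rw [← ht, ← eval_lsub]
  refine abs_eval_le (lsub_homog φ hq) _ (ht'.trans ?_)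
  exact mul_le_of_le_one_right hR (mem_closedBall_zero_iff.1 hx)

theorem exists_bound_of_ker_le {E F G : Type*} [AddCommGroup E] [Module ℝ E]
    [FiniteDimensional ℝ E] [NormedAddCommGroup F] [NormedSpace ℝ F] [NormedAddCommGroup G]
    [NormedSpace ℝ G] (A : E →ₗ[ℝ] F) (B : E →ₗ[ℝ] G) (h : LinearMap.ker A ≤ LinearMap.ker B) :
    ∃ c : ℝ, 0 ≤ c ∧ ∀ x, ‖B x‖ ≤ c * ‖A x‖ := by
  let B' : LinearMap.range A →ₗ[ℝ] G :=
    ((LinearMap.ker A).liftQ B h).comp (A.quotKerEquivRange.symm : LinearMap.range A →ₗ[ℝ] _)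
  refine ⟨‖LinearMap.toContinuousLinearMap B'‖, ContinuousLinearMap.opNorm_nonneg _, fun x => ?_⟩
  have h1 := (LinearMap.toContinuousLinearMap B').le_opNorm ⟨A x, x, rfl⟩
  have h2 : B' ⟨A x, x, rfl⟩ = B x := by
    have : A.quotKerEquivRange.symm ⟨A x, x, rfl⟩ = Submodule.Quotient.mk x := by
      rw [LinearEquiv.symm_apply_eq]
      rfl
    simp [B', this]
  simpa [h2] using h1

theorem exists_stable {E F : Type*} [AddCommGroup E] [Module ℝ E] [FiniteDimensional ℝ E]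
    [AddCommGroup F] [Module ℝ F] (T : ℕ → E →ₗ[ℝ] F) :
    ∃ d, ∀ j c, (∀ i ≤ d, T i c = 0) → T j c = 0 := by
  let Kd : ℕ → Submodule ℝ E := fun d => ⨅ i ∈ Set.Iic d, LinearMap.ker (T i)
  have hK : ∀ d c, c ∈ Kd d ↔ ∀ i ≤ d, T i c = 0 := by
    intro d c
    simp [Kd, Submodule.mem_iInf]
  obtain ⟨_, ⟨d, rfl⟩, hmin⟩ := (wellFounded_lt (α := Submodule ℝ E)).has_min (Set.range Kd)
    (Set.range_nonempty _)
  refine ⟨d, fun j c hc => ?_⟩
  have hle : Kd (max d j) ≤ Kd d := fun c hc =>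
    (hK _ _).2 fun i hi => (hK _ _).1 hc i (hi.trans (le_max_left _ _))
  have heq : Kd (max d j) = Kd d := by
    by_contra hne
    exact hmin _ ⟨_, rfl⟩ (lt_of_le_of_ne hle hne)
  exact (hK _ _).1 (heq ▸ (hK _ _).2 hc) j (le_max_right _ _)

theorem sum_antidiagonal_sq (Q : ℕ → ℝ) (N : ℕ) (hQ : ∀ a, N < a → Q a = 0) :
    ∑ j ∈ Finset.range (2 * N + 1), ∑ p ∈ antidiagonal j, Q p.1 * Q p.2 =
      (∑ a ∈ Finset.range (N + 1), Q a) ^ 2 := by
  let w : Polynomial ℝ := ∑ a ∈ Finset.range (N + 1), Polynomial.monomial a (Q a)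
  have hw : ∀ a, w.coeff a = Q a := by
    intro a
    simp only [w, Polynomial.finsetSum_coeff, Polynomial.coeff_monomial]
    rw [Finset.sum_ite_eq']
    split_ifs with h
    · rfl
    · exact (hQ a (by simpa using h)).symm
  have hdeg : w.natDegree ≤ N := by
    rw [Polynomial.natDegree_le_iff_coeff_eq_zero]
    intro a ha
    rw [hw, hQ a ha]
  have h1 : (w * w).eval 1 = ∑ j ∈ Finset.range (2 * N + 1), (w * w).coeff j * 1 ^ j :=
    Polynomial.eval_eq_sum_range' (lt_of_le_of_lt Polynomial.natDegree_mul_le (by omega)) 1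
  have h2 : w.eval 1 = ∑ j ∈ Finset.range (N + 1), w.coeff j * 1 ^ j :=
    Polynomial.eval_eq_sum_range' (by omega) 1
  simp only [one_pow, mul_one, Polynomial.coeff_mul, hw] at h1 h2
  rw [← h1, ← h2, Polynomial.eval_mul, sq]

/-- The space of restrictions of forms of degree `j`. -/
noncomputable def formSpace (ι : Type) [Fintype ι] (j : ℕ) :
    Submodule ℝ C(Metric.closedBall (0 : ι → ℝ) 1, ℝ) :=
  (homogeneousSubmodule ι ℝ j).map res

instance (j : ℕ) : FiniteDimensional ℝ (formSpace ι j) := by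
  have : FiniteDimensional ℝ (homogeneousSubmodule ι ℝ j) :=
    Submodule.finiteDimensional_of_le (S₂ := restrictTotalDegree ι ℝ j) fun q hq =>
      (mem_restrictTotalDegree _ _ _).2 (IsHomogeneous.totalDegree_le hq)
  unfold formSpace
  infer_instance

theorem tendsto_eval_of_tendsto_res {j : ℕ} (q : ℕ → MvPolynomial ι ℝ) (q₀ : MvPolynomial ι ℝ)
    (hq : ∀ n, (q n).IsHomogeneous j) (hq₀ : q₀.IsHomogeneous j)
    (h : Tendsto (fun n => res (q n)) atTop (𝓝 (res q₀))) (t : ι → ℝ) :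
    Tendsto (fun n => eval t (q n)) atTop (𝓝 (eval t q₀)) := by
  rw [tendsto_iff_norm_sub_tendsto_zero] at h ⊢
  have h2 := h.const_mul (‖t‖ ^ j)
  rw [mul_zero] at h2
  refine squeeze_zero (fun n => norm_nonneg _) (fun n => ?_) h2
  rw [← map_sub, ← map_sub]
  exact abs_eval_le ((hq n).sub hq₀) t le_rfl

theorem blowup [DecidableEq ι] {κ K : Type} [Fintype κ] [Fintype K]
    (f : κ → MvPowerSeries ι ℝ) (D M : ℕ) (c₀ : ℝ) (ε : ℕ → ℝ) (hε0 : ∀ n, 0 < ε n)
    (hε1 : ∀ n, ε n ≤ 1) (hε : Tendsto ε atTop (𝓝 0))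
    (φ : ℕ → (ι → ℝ) →ₗ[ℝ] (ι → ℝ)) (hφ : ∀ n t, ‖φ n t‖ ≤ ε n * ‖t‖) (hc₀ : 1 ≤ c₀)
    (hψ : ∀ n δ, ∃ t, φ n t = δ ∧ ‖t‖ ≤ c₀ / ε n ^ M * ‖δ‖)
    (P : ℕ → MvPolynomial ι ℝ) (hP : ∀ n, (P n).totalDegree ≤ D) (g : ℕ → K → κ → ℝ)
    (hg : ∀ n, (P n : MvPowerSeries ι ℝ) = ∑ k, (∑ m, g n k m • f m) ^ 2)
    (B : (ι → ℝ) → ℝ) (hB : ∀ t, Tendsto (fun n => eval (φ n t) (P n)) atTop (𝓝 (B t))) :
    ∃ H : K → MvPolynomial ι ℝ, ∀ t, ∑ k, eval t (H k) ^ 2 = B t := by
  let F : (κ → ℝ) →ₗ[ℝ] MvPowerSeries ι ℝ := Fintype.linearCombination ℝ f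
  have hF : ∀ c, F c = ∑ m, c m • f m := fun c => Fintype.linearCombination_apply ℝ f c
  let T : ℕ → (κ → ℝ) →ₗ[ℝ] C(Metric.closedBall (0 : ι → ℝ) 1, ℝ) :=
    fun j => res.comp ((hc j).comp F)
  obtain ⟨d, hd⟩ := exists_stable T
  let A : (κ → ℝ) →ₗ[ℝ] (Fin (d + 1) → C(Metric.closedBall (0 : ι → ℝ) 1, ℝ)) :=
    LinearMap.pi fun i => T i
  have hbd : ∀ j, ∃ c : ℝ, 0 ≤ c ∧ ∀ x, ‖T j x‖ ≤ c * ‖A x‖ := fun j =>
    exists_bound_of_ker_le A (T j) fun c hc => hd j c fun i hi =>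
      congrFun (LinearMap.mem_ker.1 hc) ⟨i, Nat.lt_succ_of_le hi⟩
  choose cb hcb0 hcb using hbd
  set N' := M * d + D + d with hN'
  let h : ℕ → K → ℕ → MvPolynomial ι ℝ := fun n k j => lsub (φ n) (hc j (F (g n k)))
  have hh : ∀ n k j, (h n k j).IsHomogeneous j := fun n k j => lsub_homog _ (hc_homog _ _)
  let v : ℕ → (kj : K × Fin (2 * N' + 1)) → formSpace ι kj.2 :=
    fun n kj => ⟨res (h n kj.1 kj.2), _, hh _ _ _, rfl⟩
  let lam : ℕ → ℝ := fun n => (max ‖v n‖ 1)⁻¹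
  have hlam0 : ∀ n, 0 < lam n := fun n => inv_pos.2 (lt_max_of_lt_right one_pos)
  have hlam1 : ∀ n, lam n ≤ 1 := fun n => inv_le_one_of_one_le₀ (le_max_right _ _)
  have hlamv : ∀ n, lam n * ‖v n‖ ≤ 1 := fun n => by
    rw [inv_mul_le_iff₀ (lt_max_of_lt_right one_pos), mul_one]
    exact le_max_left _ _
  have hvle : ∀ n k j, j ≤ 2 * N' → ‖res (h n k j)‖ ≤ ‖v n‖ := fun n k j hj =>
    norm_le_pi_norm (v n) (k, ⟨j, Nat.lt_succ_of_le hj⟩)
  have hsmall : ∀ n k j, N' < j → lam n * ‖res (h n k j)‖ ≤ cb j * c₀ ^ d * ε n := by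
    intro n k j hj
    have hR : 1 ≤ c₀ / ε n ^ M := by
      rw [le_div_iff₀ (pow_pos (hε0 n) M), one_mul]
      exact (pow_le_one₀ (hε0 n).le (hε1 n)).trans hc₀
    have h1 : ‖res (h n k j)‖ ≤ ε n ^ j * ‖T j (g n k)‖ :=
      norm_lsub_le _ (hc_homog _ _) (hε0 n).le (hφ n)
    have h2 : ‖A (g n k)‖ ≤ (c₀ / ε n ^ M) ^ d * ‖v n‖ := by
      rw [pi_norm_le_iff_of_nonneg (by positivity)]
      intro i
      have h3 : ‖T i (g n k)‖ ≤ (c₀ / ε n ^ M) ^ (i : ℕ) * ‖res (h n k i)‖ :=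
        norm_le_lsub _ (hc_homog _ _) (by linarith) (hψ n)
      refine h3.trans (mul_le_mul (pow_le_pow_right₀ hR (by omega)) (hvle n k i (by omega))
        (norm_nonneg _) (by positivity))
    have h4 : ε n ^ j ≤ ε n * (ε n ^ M) ^ d := by
      rw [← pow_mul, ← pow_succ']
      exact pow_le_pow_of_le_one (hε0 n).le (hε1 n) (by omega)
    have h5 : (ε n ^ M) ^ d * (c₀ / ε n ^ M) ^ d = c₀ ^ d := by
      rw [← mul_pow, mul_div_cancel₀ _ (pow_pos (hε0 n) M).ne']
    have hεn := hε0 n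
    have hcbj := hcb0 j
    calc lam n * ‖res (h n k j)‖
        ≤ lam n * ((ε n * (ε n ^ M) ^ d) * (cb j * ((c₀ / ε n ^ M) ^ d * ‖v n‖))) := by
          refine mul_le_mul_of_nonneg_left (h1.trans ?_) (hlam0 n).le
          refine mul_le_mul h4 ((hcb j _).trans ?_) (norm_nonneg _) (by positivity)
          exact mul_le_mul_of_nonneg_left h2 hcbj
      _ = cb j * ((ε n ^ M) ^ d * (c₀ / ε n ^ M) ^ d) * ε n * (lam n * ‖v n‖) := by ring
      _ ≤ cb j * c₀ ^ d * ε n := by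
          rw [h5]
          exact mul_le_of_le_one_right (by positivity) (hlamv n)
  have : ∀ j, ProperSpace (formSpace ι j) := fun j => FiniteDimensional.proper_real _
  obtain ⟨⟨l₀, u₀⟩, -, σ, hσ, hlim⟩ := tendsto_subseq_of_bounded
    (Metric.isBounded_closedBall (x := (0 : ℝ × ((kj : K × Fin (2 * N' + 1)) → formSpace ι kj.2)))
      (r := 1)) (x := fun n => (lam n, lam n • v n)) (fun n => by
      rw [mem_closedBall_zero_iff, Prod.norm_def, max_le_iff, norm_smul,
        Real.norm_of_nonneg (hlam0 n).le]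
      exact ⟨hlam1 n, hlamv n⟩)
  have hl : Tendsto (fun n => lam (σ n)) atTop (𝓝 l₀) := (continuous_fst.tendsto _).comp hlim
  have hu : Tendsto (fun n => lam (σ n) • v (σ n)) atTop (𝓝 u₀) :=
    (continuous_snd.tendsto _).comp hlim
  have hex : ∀ k (j : ℕ), ∃ q : MvPolynomial ι ℝ, q.IsHomogeneous j ∧
      (∀ hj : j < 2 * N' + 1, res q = u₀ (k, ⟨j, hj⟩)) ∧ (N' < j → q = 0) ∧
      (j < 2 * N' + 1 → ∀ t, Tendsto (fun n => lam (σ n) * eval t (h (σ n) k j)) atTop
        (𝓝 (eval t q))) := by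
    intro k j
    by_cases hj : j < 2 * N' + 1
    swap
    · exact ⟨0, isHomogeneous_zero _ _ _, fun h => absurd h hj, fun _ => rfl,
        fun h => absurd h hj⟩
    have h1 : Tendsto (fun n => res (lam (σ n) • h (σ n) k j)) atTop
        (𝓝 (u₀ (k, ⟨j, hj⟩) : C(Metric.closedBall (0 : ι → ℝ) 1, ℝ))) := by
      have := (continuous_subtype_val.tendsto _).comp
        (((continuous_apply (k, (⟨j, hj⟩ : Fin (2 * N' + 1)))).tendsto _).comp hu)
      refine this.congr fun n => ?_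
      simp [v]
    have key : ∀ q : MvPolynomial ι ℝ, q.IsHomogeneous j → res q = u₀ (k, ⟨j, hj⟩) → ∀ t,
        Tendsto (fun n => lam (σ n) * eval t (h (σ n) k j)) atTop (𝓝 (eval t q)) := by
      intro q hq hq' t
      have := tendsto_eval_of_tendsto_res (fun n => lam (σ n) • h (σ n) k j) q
        (fun n => (homogeneousSubmodule ι ℝ j).smul_mem _ (hh _ _ _)) hq (hq' ▸ h1) t
      simpa using this
    by_cases hj' : N' < j
    · have h2 : Tendsto (fun n => res (lam (σ n) • h (σ n) k j)) atTop (𝓝 0) := by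
        rw [tendsto_zero_iff_norm_tendsto_zero]
        have h3 := (hε.comp hσ.tendsto_atTop).const_mul (cb j * c₀ ^ d)
        rw [mul_zero] at h3
        refine squeeze_zero (fun n => norm_nonneg _) (fun n => ?_) h3
        rw [map_smul, norm_smul, Real.norm_of_nonneg (hlam0 _).le]
        exact hsmall _ k j hj'
      have h4 := tendsto_nhds_unique h2 h1
      have h5 : res (0 : MvPolynomial ι ℝ) = u₀ (k, ⟨j, hj⟩) := by rw [map_zero]; exact h4
      exact ⟨0, isHomogeneous_zero _ _ _, fun _ => h5, fun _ => rfl,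
        fun _ => key 0 (isHomogeneous_zero _ _ _) h5⟩
    · obtain ⟨q, hq, hq'⟩ := (u₀ (k, ⟨j, hj⟩)).2
      exact ⟨q, hq, fun _ => hq', fun h => absurd h hj', fun _ => key q hq hq'⟩
  choose q hq1 hq2 hq3 hq4 using hex
  have hid : ∀ n t, eval (φ n t) (P n) = ∑ k, ∑ j ∈ Finset.range (2 * N' + 1),
      ∑ p ∈ antidiagonal j, eval t (h n k p.1) * eval t (h n k p.2) := by
    intro n t
    have h1 : P n = ∑ j ∈ Finset.range (2 * N' + 1), homogeneousComponent j (P n) := by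
      conv_lhs => rw [← sum_homogeneousComponent (P n)]
      apply Finset.sum_subset
      · have := hP n
        exact Finset.range_subset_range.2 (by omega)
      · intro j _ hj
        exact homogeneousComponent_eq_zero _ _ (by simpa using hj)
    rw [h1, map_sum, Finset.sum_comm]
    refine Finset.sum_congr rfl fun j _ => ?_
    rw [← hc_coe, hg, map_sum, map_sum]
    refine Finset.sum_congr rfl fun k _ => ?_
    rw [sq, hc_mul, map_sum]
    refine Finset.sum_congr rfl fun p _ => ?_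
    simp only [h, eval_lsub, map_mul, hF]
  have hmain : ∀ t, ∑ k, eval t (∑ a ∈ Finset.range (N' + 1), q k a) ^ 2 = l₀ ^ 2 * B t := by
    intro t
    have h1 := (hl.pow 2).mul ((hB t).comp hσ.tendsto_atTop)
    have h2 : Tendsto (fun n => ∑ k, ∑ j ∈ Finset.range (2 * N' + 1), ∑ p ∈ antidiagonal j,
        (lam (σ n) * eval t (h (σ n) k p.1)) * (lam (σ n) * eval t (h (σ n) k p.2))) atTop
        (𝓝 (∑ k, ∑ j ∈ Finset.range (2 * N' + 1), ∑ p ∈ antidiagonal j,
          eval t (q k p.1) * eval t (q k p.2))) := by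
      refine tendsto_finsetSum _ fun k _ => tendsto_finsetSum _ fun j hj =>
        tendsto_finsetSum _ fun p hp => ?_
      have h3 := mem_antidiagonal.1 hp
      have h4 := Finset.mem_range.1 hj
      exact (hq4 k p.1 (by omega) t).mul (hq4 k p.2 (by omega) t)
    have h5 := tendsto_nhds_unique (h2.congr fun n => ?_) h1
    · rw [← h5]
      refine Finset.sum_congr rfl fun k _ => ?_
      rw [sum_antidiagonal_sq (fun a => eval t (q k a)) N' (fun a ha => by simp [hq3 k a ha]),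
        map_sum]
    · simp only [Function.comp, hid, Finset.mul_sum]
      refine Finset.sum_congr rfl fun k _ => Finset.sum_congr rfl fun j _ =>
        Finset.sum_congr rfl fun p _ => by ring
  by_cases hl0 : l₀ = 0
  · exfalso
    have hz : ∀ k, ∑ a ∈ Finset.range (N' + 1), q k a = 0 := by
      intro k
      apply MvPolynomial.funext
      intro t
      have h1 := hmain t
      rw [hl0, zero_pow two_ne_zero, zero_mul,
        Finset.sum_eq_zero_iff_of_nonneg (fun _ _ => sq_nonneg _)] at h1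
      simpa using h1 k (Finset.mem_univ k)
    have hq0 : ∀ k j, q k j = 0 := by
      intro k j
      by_cases hj : N' < j
      · exact hq3 k j hj
      have h1 := congrArg (homogeneousComponent j) (hz k)
      rw [map_sum, map_zero, Finset.sum_eq_single j] at h1
      · rwa [homogeneousComponent_of_mem (hq1 k j), if_pos rfl] at h1
      · intro b _ hb
        rw [homogeneousComponent_of_mem (hq1 k b), if_neg hb.symm]
      · intro hnot
        exact absurd (Finset.mem_range.2 (by omega)) hnot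
    have hu0 : u₀ = 0 := by
      funext ⟨k, j⟩
      apply Subtype.ext
      rw [← hq2 k j j.2, hq0]
      simp
    rw [hu0] at hu
    rw [hl0] at hl
    have h1 := (hl.eventually (gt_mem_nhds one_pos)).and
      ((tendsto_zero_iff_norm_tendsto_zero.1 hu).eventually (gt_mem_nhds one_pos))
    obtain ⟨n, hn1, hn2⟩ := h1.exists
    rw [norm_smul, Real.norm_of_nonneg (hlam0 _).le] at hn2
    rcases le_total ‖v (σ n)‖ 1 with h2 | h2
    · simp [lam, max_eq_right h2] at hn1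
    · simp only [lam, max_eq_left h2] at hn2
      exact hn2.ne (inv_mul_cancel₀ (lt_of_lt_of_le one_pos h2).ne')
  · refine ⟨fun k => C l₀⁻¹ * ∑ a ∈ Finset.range (N' + 1), q k a, fun t => ?_⟩
    simp only [map_mul, eval_C, mul_pow]
    rw [← Finset.mul_sum, hmain]
    field_simp

end Vale.Agent.P256
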