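import Mathlib

/-! The Choi form, a two-positive extension of it, and the failure of sums of squares. -/

namespace Vale.Agent.P256

open MvPolynomial Filter Topology

/-- Polynomial functions. -/
def IsPoly {ι : Type} (f : (ι → ℝ) → ℝ) : Prop := ∃ q : MvPolynomial ι ℝ, ∀ x, eval x q = f x

namespace IsPoly

variable {ι : Type} {f g : (ι → ℝ) → ℝ}

theorem const (c : ℝ) : IsPoly fun _ : ι → ℝ => c := ⟨C c, fun _ => eval_C _⟩

theorem coord (i : ι) : IsPoly fun x : ι → ℝ => x i := ⟨X i, fun _ => eval_X _⟩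

theorem add (hf : IsPoly f) (hg : IsPoly g) : IsPoly fun x => f x + g x := by
  obtain ⟨p, hp⟩ := hf
  obtain ⟨q, hq⟩ := hg
  exact ⟨p + q, fun x => by rw [map_add, hp, hq]⟩

theorem sub (hf : IsPoly f) (hg : IsPoly g) : IsPoly fun x => f x - g x := by
  obtain ⟨p, hp⟩ := hf
  obtain ⟨q, hq⟩ := hg
  exact ⟨p - q, fun x => by rw [map_sub, hp, hq]⟩

theorem mul (hf : IsPoly f) (hg : IsPoly g) : IsPoly fun x => f x * g x := by
  obtain ⟨p, hp⟩ := hf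
  obtain ⟨q, hq⟩ := hg
  exact ⟨p * q, fun x => by rw [map_mul, hp, hq]⟩

theorem sum {κ : Type} (s : Finset κ) {F : κ → (ι → ℝ) → ℝ} (h : ∀ k ∈ s, IsPoly (F k)) :
    IsPoly fun x => ∑ k ∈ s, F k x := by
  choose! q hq using h
  exact ⟨∑ k ∈ s, q k, fun x => by
    rw [map_sum]; exact Finset.sum_congr rfl fun k hk => hq k hk x⟩

theorem comp {κ : Type} (q : MvPolynomial κ ℝ) {ψ : (ι → ℝ) → κ → ℝ}
    (h : ∀ k, IsPoly fun x => ψ x k) : IsPoly fun x => eval (ψ x) q := by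
  induction q using MvPolynomial.induction_on with
  | C a => simpa using const a
  | add p q hp hq => simpa using hp.add hq
  | mul_X p k hp => simpa using hp.mul (h k)

theorem differentiable [Fintype ι] (hf : IsPoly f) : Differentiable ℝ f := by
  obtain ⟨q, hq⟩ := hf
  rw [← funext hq]
  clear hq
  induction q using MvPolynomial.induction_on with
  | C a => simp
  | add p q hp hq => simp only [map_add]; exact hp.add hq
  | mul_X p k hp => simp only [map_mul, eval_X]; exact hp.mul (differentiable_apply k)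

theorem smul_of_bound (hf : IsPoly f) (x : ι → ℝ) (c : ℝ) (h : ∀ s : ℝ, f (s • x) ^ 2 ≤ s ^ 2 * c)
    (s : ℝ) : f (s • x) = s * f x := by
  obtain ⟨q, hq⟩ := hf
  let P : Polynomial ℝ := aeval (fun i => Polynomial.C (x i) * Polynomial.X) q
  have hP : ∀ s, P.eval s = f (s • x) := by
    intro s
    rw [← hq, ← Polynomial.coe_aeval_eq_eval, ← AlgHom.comp_apply, comp_aeval]
    change eval _ q = _
    congr 2
    funext i
    simp only [map_mul, Polynomial.aeval_C, Polynomial.aeval_X, Pi.smul_apply, smul_eq_mul]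
    exact mul_comm _ _
  have h0 : P.coeff 0 = 0 := by
    have := h 0
    rw [← hP, ← Polynomial.coeff_zero_eq_eval_zero] at this
    nlinarith [sq_nonneg (P.coeff 0)]
  obtain ⟨P₁, hP₁⟩ := Polynomial.X_dvd_iff.2 h0
  have hdeg : P₁.degree ≤ 0 := by
    rw [← Polynomial.isBoundedUnder_abs_atTop_iff]
    refine ⟨Real.sqrt c, eventually_map.2 ?_⟩
    filter_upwards [eventually_gt_atTop 0] with s hs
    apply Real.abs_le_sqrt
    have := h s
    rw [← hP, hP₁, Polynomial.eval_mul, Polynomial.eval_X, mul_pow] at this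
    exact le_of_mul_le_mul_left this (by positivity)
  have h1 := hP 1
  rw [one_smul] at h1
  rw [← hP, ← h1, hP₁, Polynomial.eq_C_of_degree_le_zero hdeg]
  simp only [Polynomial.eval_mul, Polynomial.eval_X, Polynomial.eval_C, one_mul]

theorem linear_of_bound [Fintype ι] [DecidableEq ι] (hf : IsPoly f)
    (h : ∀ x, ∃ c : ℝ, ∀ s : ℝ, f (s • x) ^ 2 ≤ s ^ 2 * c) (x : ι → ℝ) :
    f x = ∑ i, x i * f (Pi.single i 1) := by
  have key : ∀ x, f x = fderiv ℝ f 0 x := by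
    intro x
    obtain ⟨c, hc⟩ := h x
    have h1 : HasDerivAt (fun s : ℝ => f (s • x)) (fderiv ℝ f 0 x) 0 := by
      have h2 : HasDerivAt (fun s : ℝ => s • x) x 0 := by
        simpa using (hasDerivAt_id (0 : ℝ)).smul_const x
      have h3 : HasFDerivAt f (fderiv ℝ f 0) ((0 : ℝ) • x) := by
        rw [zero_smul]; exact (hf.differentiable 0).hasFDerivAt
      exact h3.comp_hasDerivAt (0 : ℝ) h2
    have h4 : HasDerivAt (fun s : ℝ => f (s • x)) (f x) 0 := by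
      simp only [hf.smul_of_bound x c hc]
      simpa using (hasDerivAt_id (0 : ℝ)).mul_const (f x)
    exact h4.unique h1
  simp only [key]
  conv_lhs => rw [pi_eq_sum_univ' x]
  simp

end IsPoly

/-- The perturbed Choi biquadratic form. -/
def choi (η : ℝ) (x y : Fin 3 → ℝ) : ℝ :=
  2 * ∑ i, (x i * y i) ^ 2 + 2 * ∑ i, (x i * y (i + 1)) ^ 2 - (∑ i, x i * y i) ^ 2 +
    η * (∑ i, x i * y i) ^ 2

theorem choi_not_sos {K : Type} [Fintype K] (η : ℝ) (hη : η < 1 / 6)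
    (h : K → (Fin 3 → ℝ) → (Fin 3 → ℝ) → ℝ) (h1 : ∀ k y, IsPoly fun x => h k x y)
    (h2 : ∀ k x, IsPoly fun y => h k x y) (hs : ∀ x y, ∑ k, h k x y ^ 2 = choi η x y) : False := by
  have hle : ∀ k x y, h k x y ^ 2 ≤ choi η x y := fun k x y =>
    hs x y ▸ Finset.single_le_sum (f := fun k => h k x y ^ 2) (fun _ _ => sq_nonneg _)
      (Finset.mem_univ k)
  have hx : ∀ k x y, h k x y = ∑ i, x i * h k (Pi.single i 1) y := fun k x y =>
    (h1 k y).linear_of_bound (fun x => ⟨choi η x y, fun s => (hle k _ y).trans_eq (by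
      simp only [choi, Fin.sum_univ_three, Pi.smul_apply, smul_eq_mul]; ring)⟩) x
  have hy : ∀ k x y, h k x y = ∑ j, y j * h k x (Pi.single j 1) := fun k x y =>
    (h2 k x).linear_of_bound (fun y => ⟨choi η x y, fun s => (hle k x _).trans_eq (by
      simp only [choi, Fin.sum_univ_three, Pi.smul_apply, smul_eq_mul]; ring)⟩) y
  obtain ⟨c, hc⟩ : ∃ c : K → Fin 3 → Fin 3 → ℝ, ∀ k x y, h k x y = ∑ i, ∑ j, x i * y j * c k i j :=
    ⟨fun k i j => h k (Pi.single i 1) (Pi.single j 1), fun k x y => by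
      rw [hx]
      refine Finset.sum_congr rfl fun i _ => ?_
      rw [hy, Finset.mul_sum]
      exact Finset.sum_congr rfl fun j _ => by ring⟩
  let L : ((Fin 3 → ℝ) → (Fin 3 → ℝ) → ℝ) → ℝ := fun f =>
    f ![1, 0, 0] ![1, 0, 0] + f ![0, 1, 0] ![0, 1, 0] + f ![0, 0, 1] ![0, 0, 1] +
    (1 / 4) * (f ![1, 0, 0] ![0, 1, 0] + f ![0, 1, 0] ![0, 0, 1] + f ![0, 0, 1] ![1, 0, 0]) +
    4 * (f ![0, 1, 0] ![1, 0, 0] + f ![0, 0, 1] ![0, 1, 0] + f ![1, 0, 0] ![0, 0, 1]) +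
    (1 / 4) * (f ![1, 1, 0] ![1, 1, 0] - f ![1, 1, 0] ![1, -1, 0] - f ![1, -1, 0] ![1, 1, 0] +
      f ![1, -1, 0] ![1, -1, 0]) +
    (1 / 4) * (f ![0, 1, 1] ![0, 1, 1] - f ![0, 1, 1] ![0, 1, -1] - f ![0, 1, -1] ![0, 1, 1] +
      f ![0, 1, -1] ![0, 1, -1]) +
    (1 / 4) * (f ![1, 0, 1] ![1, 0, 1] - f ![1, 0, 1] ![1, 0, -1] - f ![1, 0, -1] ![1, 0, 1] +
      f ![1, 0, -1] ![1, 0, -1])
  have hL1 : L (choi η) = 9 * η - 3 / 2 := by
    simp [L, choi, Fin.sum_univ_three]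
    ring
  have hL2 : L (choi η) = ∑ k, L fun x y => h k x y ^ 2 := by
    simp only [L, ← hs, Finset.sum_add_distrib, Finset.sum_sub_distrib, ← Finset.mul_sum]
  have hL3 : ∀ k, 0 ≤ L fun x y => h k x y ^ 2 := by
    intro k
    have : (L fun x y => h k x y ^ 2) = (c k 0 0 + c k 1 1 + c k 2 2) ^ 2 +
        (c k 0 1 / 2 + 2 * c k 1 0) ^ 2 + (c k 1 2 / 2 + 2 * c k 2 1) ^ 2 +
        (c k 2 0 / 2 + 2 * c k 0 2) ^ 2 := by
      simp [L, hc, Fin.sum_univ_three]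
      ring
    rw [this]
    positivity
  have := Finset.sum_nonneg fun k (_ : k ∈ Finset.univ) => hL3 k
  linarith

theorem frac_le_half {a b : ℝ} (ha : 0 ≤ a) (hb : 0 ≤ b) : a / (2 * a + 2 * b) ≤ 1 / 2 := by
  rcases (show 0 ≤ 2 * a + 2 * b by positivity).lt_or_eq with h | h
  · rw [div_le_iff₀ h]; linarith
  · rw [← h]; simp

theorem frac_sum_le {a b c : ℝ} (ha : 0 ≤ a) (hb : 0 ≤ b) (hc : 0 ≤ c) :
    a / (2 * a + 2 * b) + b / (2 * b + 2 * c) + c / (2 * c + 2 * a) ≤ 1 := by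
  have h1 := frac_le_half ha hb
  have h2 := frac_le_half hb hc
  have h3 := frac_le_half hc ha
  rcases ha.lt_or_eq with ha' | ha'
  swap
  · rw [← ha', zero_div, ha']; linarith
  rcases hb.lt_or_eq with hb' | hb'
  swap
  · have : b / (2 * b + 2 * c) = 0 := by rw [← hb', zero_div]
    linarith
  rcases hc.lt_or_eq with hc' | hc'
  swap
  · have : c / (2 * c + 2 * a) = 0 := by rw [← hc', zero_div]
    linarith
  rw [div_add_div _ _ (by positivity) (by positivity), div_add_div _ _ (by positivity)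
    (by positivity), div_le_one (by positivity)]
  have : 0 ≤ a * a * c + b * b * a + c * c * b + a * b * c := by positivity
  nlinarith

theorem amgm_frac (t x y z : ℝ) :
    2 * t * (x * y) ≤ x ^ 2 * (2 * y ^ 2 + 2 * z ^ 2) + t ^ 2 * (y ^ 2 / (2 * y ^ 2 + 2 * z ^ 2)) := by
  rcases (show 0 ≤ 2 * y ^ 2 + 2 * z ^ 2 by positivity).lt_or_eq with h | h
  · set q := 2 * y ^ 2 + 2 * z ^ 2
    have : x ^ 2 * q + t ^ 2 * (y ^ 2 / q) - 2 * t * (x * y) = (x * q - t * y) ^ 2 / q := by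
      field_simp
      ring
    have h2 : 0 ≤ (x * q - t * y) ^ 2 / q := by positivity
    linarith
  · have hy : y = 0 := by nlinarith [sq_nonneg y, sq_nonneg z]
    rw [← h, hy]; simp

theorem choi_nonneg (x y : Fin 3 → ℝ) :
    (x 0 * y 0 + x 1 * y 1 + x 2 * y 2) ^ 2 ≤
      2 * ((x 0 * y 0) ^ 2 + (x 1 * y 1) ^ 2 + (x 2 * y 2) ^ 2 +
        (x 0 * y 1) ^ 2 + (x 1 * y 2) ^ 2 + (x 2 * y 0) ^ 2) := by
  set t := x 0 * y 0 + x 1 * y 1 + x 2 * y 2 with ht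
  have h0 := amgm_frac t (x 0) (y 0) (y 1)
  have h1 := amgm_frac t (x 1) (y 1) (y 2)
  have h2 := amgm_frac t (x 2) (y 2) (y 0)
  have h3 := mul_le_mul_of_nonneg_left
    (frac_sum_le (sq_nonneg (y 0)) (sq_nonneg (y 1)) (sq_nonneg (y 2))) (sq_nonneg t)
  have h4 : 2 * t * (x 0 * y 0) + 2 * t * (x 1 * y 1) + 2 * t * (x 2 * y 2) = 2 * t ^ 2 := by
    rw [ht]; ring
  nlinarith

theorem final_ineq {p τ e n g S : ℝ} (hn : 0 ≤ n) (hg : 0 ≤ g) (h1 : |p * τ - e| ≤ |p| * n + 3 / 2 * g)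
    (h2 : |e| ≤ g) (h3 : 10 * g ≤ S) : 0 ≤ S + 4 * (p - τ) ^ 2 + n ^ 2 - τ ^ 2 := by
  have h4 : |p| * |τ| ≤ |p| * n + 5 / 2 * g := by
    have := abs_sub_abs_le_abs_sub (p * τ) e
    rw [abs_mul] at this
    linarith
  have h5 : (|p| - |τ|) ^ 2 ≤ (p - τ) ^ 2 := by
    rw [← sq_abs (p - τ), ← sq_abs (|p| - |τ|)]
    exact pow_le_pow_left₀ (abs_nonneg _) (abs_abs_sub_abs_le_abs_sub p τ) 2
  rw [← sq_abs τ]
  have ha := abs_nonneg p
  have hb := abs_nonneg τ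
  set a := |p|
  set b := |τ|
  by_cases hc : b ≤ n
  · nlinarith [sq_nonneg (p - τ)]
  by_cases hd : b ≤ 2 * a
  · nlinarith [sq_nonneg (p - τ)]
  · nlinarith

/-- Row and column indices. -/
abbrev Om := Option (Fin 3)

/-- Trace of the lower right block. -/
def tr3 (D : Om → Om → ℝ) : ℝ := ∑ i : Fin 3, D (some i) (some i)

/-- The two-positive form, as an explicit function. -/
def Qf (D D' : Om → Om → ℝ) : ℝ :=
  5 * ∑ i : Fin 3, D (some i) none * D' (some i) none +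
  5 * ∑ j : Fin 3, D none (some j) * D' none (some j) +
  4 * ((D none none - tr3 D) * (D' none none - tr3 D')) +
  2 * ∑ i : Fin 3, D (some i) (some i) * D' (some i) (some i) +
  2 * ∑ i : Fin 3, D (some i) (some (i + 1)) * D' (some i) (some (i + 1)) - tr3 D * tr3 D'

/-- The two-positive form, as a bilinear map. -/
def Qb : (Om → Om → ℝ) →ₗ[ℝ] (Om → Om → ℝ) →ₗ[ℝ] ℝ :=
  LinearMap.mk₂ ℝ Qf
    (fun _ _ _ => by simp only [Qf, tr3, Fin.sum_univ_three, Pi.add_apply]; ring)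
    (fun _ _ _ => by simp only [Qf, tr3, Fin.sum_univ_three, Pi.smul_apply, smul_eq_mul]; ring)
    (fun _ _ _ => by simp only [Qf, tr3, Fin.sum_univ_three, Pi.add_apply]; ring)
    (fun _ _ _ => by simp only [Qf, tr3, Fin.sum_univ_three, Pi.smul_apply, smul_eq_mul]; ring)

theorem Qb_apply (D D' : Om → Om → ℝ) : Qb D D' = Qf D D' := rfl

theorem Qb_symm (D D' : Om → Om → ℝ) : Qb D D' = Qb D' D := by
  simp only [Qb_apply, Qf, tr3, Fin.sum_univ_three]; ring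

/-- The six entries seen by the positive part of the Choi form. -/
def nu (D : Fin 3 → Fin 3 → ℝ) : EuclideanSpace ℝ (Fin 6) :=
  WithLp.toLp 2 ![D 0 0, D 1 1, D 2 2, D 0 1, D 1 2, D 2 0]

theorem nu_sq (D : Fin 3 → Fin 3 → ℝ) : ‖nu D‖ ^ 2 =
    D 0 0 ^ 2 + D 1 1 ^ 2 + D 2 2 ^ 2 + D 0 1 ^ 2 + D 1 2 ^ 2 + D 2 0 ^ 2 := by
  rw [EuclideanSpace.real_norm_sq_eq]
  simp [nu, Fin.sum_univ_six]

theorem two_positive_aux (D : Fin 3 → Fin 3 → ℝ) (s δ x y : Fin 3 → ℝ) (p : ℝ)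
    (hR : ∀ i j, x i * y j = p * D i j - s i * δ j) :
    0 ≤ 5 * (s 0 ^ 2 + s 1 ^ 2 + s 2 ^ 2) + 5 * (δ 0 ^ 2 + δ 1 ^ 2 + δ 2 ^ 2) +
      4 * (p - (D 0 0 + D 1 1 + D 2 2)) ^ 2 +
      2 * (D 0 0 ^ 2 + D 1 1 ^ 2 + D 2 2 ^ 2 + D 0 1 ^ 2 + D 1 2 ^ 2 + D 2 0 ^ 2) -
      (D 0 0 + D 1 1 + D 2 2) ^ 2 := by
  have hnu : nu (fun i j => x i * y j) = p • nu D - nu (fun i j => s i * δ j) := by
    ext i
    fin_cases i <;> simp [nu, hR]
  have htri : ‖nu (fun i j => x i * y j)‖ ≤ |p| * ‖nu D‖ + ‖nu (fun i j => s i * δ j)‖ := by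
    rw [hnu]
    refine (norm_sub_le _ _).trans_eq ?_
    rw [norm_smul, Real.norm_eq_abs]
  obtain ⟨g, hg0, hg⟩ : ∃ g : ℝ, 0 ≤ g ∧
      g ^ 2 = (s 0 ^ 2 + s 1 ^ 2 + s 2 ^ 2) * (δ 0 ^ 2 + δ 1 ^ 2 + δ 2 ^ 2) :=
    ⟨Real.sqrt _, Real.sqrt_nonneg _, Real.sq_sqrt (by positivity)⟩
  have hE : ‖nu (fun i j => s i * δ j)‖ ≤ g := by
    refine le_of_sq_le_sq ?_ hg0
    rw [nu_sq, hg]
    nlinarith [sq_nonneg (s 0 * δ 2), sq_nonneg (s 1 * δ 0), sq_nonneg (s 2 * δ 1)]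
  have he : |s 0 * δ 0 + s 1 * δ 1 + s 2 * δ 2| ≤ g := by
    apply abs_le_of_sq_le_sq _ hg0
    rw [hg]
    nlinarith [sq_nonneg (s 0 * δ 1 - s 1 * δ 0), sq_nonneg (s 0 * δ 2 - s 2 * δ 0),
      sq_nonneg (s 1 * δ 2 - s 2 * δ 1)]
  have hS : 10 * g ≤ 5 * (s 0 ^ 2 + s 1 ^ 2 + s 2 ^ 2) + 5 * (δ 0 ^ 2 + δ 1 ^ 2 + δ 2 ^ 2) := by
    have : g ≤ ((s 0 ^ 2 + s 1 ^ 2 + s 2 ^ 2) + (δ 0 ^ 2 + δ 1 ^ 2 + δ 2 ^ 2)) / 2 := by
      refine le_of_sq_le_sq ?_ (by positivity)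
      rw [hg]
      nlinarith [sq_nonneg ((s 0 ^ 2 + s 1 ^ 2 + s 2 ^ 2) - (δ 0 ^ 2 + δ 1 ^ 2 + δ 2 ^ 2))]
    linarith
  have h2 : Real.sqrt 2 ^ 2 = 2 := Real.sq_sqrt (by norm_num)
  have h20 : 0 ≤ Real.sqrt 2 := Real.sqrt_nonneg _
  have h21 : Real.sqrt 2 ≤ 3 / 2 := by nlinarith
  have hch : |p * (D 0 0 + D 1 1 + D 2 2) - (s 0 * δ 0 + s 1 * δ 1 + s 2 * δ 2)| ≤
      Real.sqrt 2 * ‖nu (fun i j => x i * y j)‖ := by
    apply abs_le_of_sq_le_sq _ (by positivity)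
    rw [mul_pow, h2, nu_sq]
    refine le_of_eq_of_le ?_ (choi_nonneg x y)
    simp only [hR]
    ring
  have hfin := final_ineq (n := Real.sqrt 2 * ‖nu D‖)
    (by positivity) hg0 (hch.trans (by
      have h3 := mul_le_mul_of_nonneg_left htri h20
      have h4 := mul_le_mul h21 hE (norm_nonneg _) (by norm_num)
      calc _ ≤ _ := h3
        _ = |p| * (Real.sqrt 2 * ‖nu D‖) + Real.sqrt 2 * ‖nu (fun i j => s i * δ j)‖ := by ring
        _ ≤ _ := by linarith)) he hS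
  rwa [mul_pow, h2, nu_sq] at hfin

theorem two_positive (p v ζ w : Om → ℝ) (hζ : ζ none = 0) :
    0 ≤ Qb (fun i j => p i * v j + ζ i * w j) (fun i j => p i * v j + ζ i * w j) := by
  refine (two_positive_aux (fun i j => p (some i) * v (some j) + ζ (some i) * w (some j))
    (fun i => p (some i) * v none + ζ (some i) * w none)
    (fun j => p none * v (some j) + ζ none * w (some j)) (fun i => ζ (some i))
    (fun j => p none * (v none * w (some j) - w none * v (some j)))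
    (p none * v none + ζ none * w none) (fun i j => by rw [hζ]; ring)).trans_eq ?_
  rw [Qb_apply]
  simp only [Qf, tr3, Fin.sum_univ_three]
  have e1 : (0 : Fin 3) + 1 = 1 := rfl
  have e2 : (1 : Fin 3) + 1 = 2 := rfl
  have e3 : (2 : Fin 3) + 1 = 0 := rfl
  rw [e1, e2, e3]
  ring

end Vale.Agent.P256
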