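import Mathlib

namespace Vale.Agent.P256

/-- `p` is homogeneous, `p(e) > 0`, and for every real `x` all complex roots of
`t ↦ p(t e - x)` are real. -/
def IsHyperbolic {σ : Type} (p : MvPolynomial σ ℝ) (e : σ → ℝ) : Prop :=
  (∃ d : ℕ, p.IsHomogeneous d) ∧ 0 < MvPolynomial.eval e p ∧
    ∀ (x : σ → ℝ) (z : ℂ),
      MvPolynomial.aeval (fun i => z * (e i : ℂ) - (x i : ℂ)) p = 0 → z.im = 0

/-- The closed hyperbolicity cone: all roots of `t ↦ p(t e - x)` are nonnegative. -/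
def hypCone {σ : Type} (p : MvPolynomial σ ℝ) (e : σ → ℝ) : Set (σ → ℝ) :=
  {x | ∀ t : ℝ, MvPolynomial.eval (fun i => t * e i - x i) p = 0 → 0 ≤ t}

/-- Spectrahedral shadow: projection of the solution set of a linear matrix inequality. -/
def IsSpectrahedralShadow {σ : Type} [Fintype σ] (S : Set (σ → ℝ)) : Prop :=
  ∃ (N a : ℕ) (A₀ : Matrix (Fin N) (Fin N) ℝ) (A : σ → Matrix (Fin N) (Fin N) ℝ)
    (B : Fin a → Matrix (Fin N) (Fin N) ℝ),
    A₀.IsSymm ∧ (∀ i, (A i).IsSymm) ∧ (∀ j, (B j).IsSymm) ∧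
      S = {x | ∃ u : Fin a → ℝ, (A₀ + ∑ i, x i • A i + ∑ j, u j • B j).PosSemidef}

end Vale.Agent.P256
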