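import Mathlib

/-! Exact semidefinite duality after facial reduction. -/

namespace Vale.Agent.P256

open Matrix

theorem continuous_quad {n : Type} [Fintype n] (M : Matrix n n ℝ) :
    Continuous fun w : n → ℝ => w ⬝ᵥ M *ᵥ w := by
  unfold dotProduct mulVec dotProduct
  fun_prop

theorem quad_smul {n : Type} [Fintype n] (M : Matrix n n ℝ) (w : n → ℝ) (c : ℝ) :
    (c • w) ⬝ᵥ M *ᵥ (c • w) = c ^ 2 * (w ⬝ᵥ M *ᵥ w) := by
  rw [mulVec_smul, smul_dotProduct, dotProduct_smul, smul_eq_mul, smul_eq_mul]; ring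

/-- A form that is positive definite on `W` dominates every other form on `W`. -/
theorem exists_dominate {n : Type} [Fintype n] (W : Submodule ℝ (n → ℝ)) (P M : Matrix n n ℝ)
    (hP : ∀ w ∈ W, w ≠ 0 → 0 < w ⬝ᵥ P *ᵥ w) :
    ∃ s : ℝ, ∀ t, s ≤ t → ∀ w ∈ W, 0 ≤ t * (w ⬝ᵥ P *ᵥ w) + w ⬝ᵥ M *ᵥ w := by
  have hC : IsCompact ((W : Set (n → ℝ)) ∩ Metric.sphere 0 1) :=
    (isCompact_sphere 0 1).inter_left W.closed_of_finiteDimensional
  have hcont : ContinuousOn (fun w : n → ℝ => -(w ⬝ᵥ M *ᵥ w) / (w ⬝ᵥ P *ᵥ w))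
      ((W : Set (n → ℝ)) ∩ Metric.sphere 0 1) := by
    apply ContinuousOn.div (continuous_quad M).neg.continuousOn (continuous_quad P).continuousOn
    rintro w ⟨hw, hw1⟩
    refine (hP w hw ?_).ne'
    rintro rfl
    simp at hw1
  obtain ⟨s, hs⟩ := hC.bddAbove_image hcont
  refine ⟨s, fun t ht w hw => ?_⟩
  by_cases h0 : w = 0
  · simp [h0]
  have hn : 0 < ‖w‖ := norm_pos_iff.2 h0
  have hmem : ‖w‖⁻¹ • w ∈ (W : Set (n → ℝ)) ∩ Metric.sphere 0 1 :=
    ⟨W.smul_mem _ hw, by simp [norm_smul, hn.ne']⟩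
  have h1 := hs ⟨_, hmem, rfl⟩
  have hPw := hP w hw h0
  simp only [quad_smul] at h1
  have h2 : -(‖w‖⁻¹ ^ 2 * (w ⬝ᵥ M *ᵥ w)) / (‖w‖⁻¹ ^ 2 * (w ⬝ᵥ P *ᵥ w)) =
      -(w ⬝ᵥ M *ᵥ w) / (w ⬝ᵥ P *ᵥ w) := by
    field_simp
  rw [h2, div_le_iff₀ hPw] at h1
  nlinarith

theorem psd_mulVec_eq_zero {n : Type} [Fintype n] {M : Matrix n n ℝ} (hM : M.PosSemidef)
    {w : n → ℝ} (h : w ⬝ᵥ M *ᵥ w = 0) : M *ᵥ w = 0 := by
  have := (hM.dotProduct_mulVec_zero_iff w).1 (by simpa using h)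
  exact this

theorem psd_nonneg {n : Type} [Fintype n] {M : Matrix n n ℝ} (hM : M.PosSemidef)
    (w : n → ℝ) : 0 ≤ w ⬝ᵥ M *ᵥ w := by
  simpa using hM.dotProduct_mulVec_nonneg w

theorem psd_of {n : Type} [Fintype n] {M : Matrix n n ℝ} (hM : M.IsSymm)
    (h : ∀ w, 0 ≤ w ⬝ᵥ M *ᵥ w) : M.PosSemidef :=
  PosSemidef.of_dotProduct_mulVec_nonneg (by
      rw [IsHermitian, conjTranspose_eq_transpose_of_trivial]; exact hM.eq)
    (by simpa using h)

theorem psd_symm {n : Type} [Fintype n] {M : Matrix n n ℝ} (hM : M.PosSemidef) : M.IsSymm := by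
  have := hM.1
  rwa [IsHermitian, conjTranspose_eq_transpose_of_trivial] at this

theorem sdp_dual {V n : Type} [AddCommGroup V] [Module ℝ V] [Fintype n] [DecidableEq n]
    (L : V →ₗ[ℝ] Matrix n n ℝ) (τ l : V →ₗ[ℝ] ℝ)
    (hl : ∀ q, τ q = 1 → (L q).PosSemidef → 0 ≤ l q) :
    ∃ (Y : Matrix n n ℝ) (c : ℝ), Y.PosSemidef ∧ 0 ≤ c ∧
      ∀ q, τ q = 1 → (L q).PosSemidef → l q = ∑ a, ∑ b, Y a b * L q a b + c := by
  let F : Set V := {q | τ q = 1 ∧ (L q).PosSemidef}
  by_cases hF : F.Nonempty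
  swap
  · exact ⟨0, 0, PosSemidef.zero, le_rfl, fun q h1 h2 => absurd ⟨q, h1, h2⟩ hF⟩
  obtain ⟨q₀, hq₀, hmin⟩ := WellFounded.has_min
    (InvImage.wf (fun q => Module.finrank ℝ (LinearMap.ker (toLin' (L q)))) wellFounded_lt) F hF
  set N := LinearMap.ker (toLin' (L q₀)) with hN
  have hker : ∀ q ∈ F, ∀ w ∈ N, L q *ᵥ w = 0 := by
    intro q hq w hw
    have hmid : (1 / 2 : ℝ) • (q₀ + q) ∈ F := by
      refine ⟨by rw [map_smul, map_add, hq₀.1, hq.1]; norm_num, ?_⟩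
      rw [map_smul, map_add]
      exact (hq₀.2.add hq.2).smul (by norm_num)
    have hle : LinearMap.ker (toLin' (L ((1 / 2 : ℝ) • (q₀ + q)))) ≤
        N ⊓ LinearMap.ker (toLin' (L q)) := by
      intro v hv
      rw [LinearMap.mem_ker, toLin'_apply, map_smul, map_add, smul_mulVec, add_mulVec] at hv
      have h0 := congrArg (fun z => v ⬝ᵥ z) hv
      simp only [dotProduct_smul, dotProduct_add, dotProduct_zero, smul_eq_mul] at h0
      have h1 := psd_nonneg hq₀.2 v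
      have h2 := psd_nonneg hq.2 v
      exact ⟨psd_mulVec_eq_zero hq₀.2 (by linarith), psd_mulVec_eq_zero hq.2 (by linarith)⟩
    have hnot := hmin _ hmid
    have heq : LinearMap.ker (toLin' (L ((1 / 2 : ℝ) • (q₀ + q)))) = N :=
      Submodule.eq_of_le_of_finrank_le (hle.trans inf_le_left) (not_lt.1 hnot)
    exact (hle (heq ▸ hw)).2
  let S : Submodule ℝ V := Submodule.span ℝ F
  have hS : ∀ q ∈ S, (L q).IsSymm ∧ ∀ w ∈ N, L q *ᵥ w = 0 := by
    intro q hq
    induction hq using Submodule.span_induction with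
    | mem q hq => exact ⟨psd_symm hq.2, hker q hq⟩
    | zero => simp
    | add a b _ _ ha hb =>
      refine ⟨by rw [map_add]; exact ha.1.add hb.1, fun w hw => ?_⟩
      rw [map_add, add_mulVec, ha.2 w hw, hb.2 w hw, add_zero]
    | smul c a _ ha =>
      refine ⟨by rw [map_smul]; exact ha.1.smul c, fun w hw => ?_⟩
      rw [map_smul, smul_mulVec, ha.2 w hw, smul_zero]
  have hpos : ∀ q, 0 ≤ τ q → (L q).PosSemidef → 0 ≤ l q := by
    intro q h1 h2
    rcases h1.lt_or_eq with h | h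
    · have := hl ((τ q)⁻¹ • q) (by rw [map_smul, smul_eq_mul, inv_mul_cancel₀ h.ne'])
        (by rw [map_smul]; exact h2.smul (inv_nonneg.2 h1))
      rw [map_smul, smul_eq_mul] at this
      exact (mul_nonneg_iff_of_pos_left (inv_pos.2 h)).1 this
    · by_contra hneg
      push Not at hneg
      have h0 := hl q₀ hq₀.1 hq₀.2
      have := hl (q₀ + ((l q₀ + 1) / (-l q)) • q) (by rw [map_add, map_smul, ← h, hq₀.1]; simp)
        (by
          rw [map_add, map_smul]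
          exact hq₀.2.add (h2.smul (div_nonneg (by linarith) (by linarith))))
      rw [map_add, map_smul, smul_eq_mul] at this
      have h3 : (l q₀ + 1) / (-l q) * l q = -(l q₀ + 1) := by
        field_simp [hneg.ne]
      linarith
  let π : S →ₗ[ℝ] Matrix n n ℝ × ℝ := (L.prod τ).comp S.subtype
  obtain ⟨lam, hlam⟩ : l.comp S.subtype ∈ LinearMap.range π.dualMap := by
    rw [LinearMap.range_dualMap_eq_dualAnnihilator_ker, Submodule.mem_dualAnnihilator]
    intro q hq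
    have h1 : L q = 0 := congrArg Prod.fst hq
    have h2 : τ q = 0 := congrArg Prod.snd hq
    have h3 := hpos q h2.ge (h1 ▸ PosSemidef.zero)
    have h4 := hpos (-q) (by rw [map_neg, h2]; simp) (by rw [map_neg, h1]; simpa using PosSemidef.zero)
    rw [map_neg] at h4
    change l q = 0
    linarith
  have hlam' : ∀ q : S, lam (π q) = l q := fun q => congrArg (fun f => f q) hlam
  obtain ⟨W, hW⟩ := N.exists_isCompl
  let s : PointedCone ℝ (Matrix n n ℝ × ℝ) := PointedCone.ofConeComb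
    {z | 0 ≤ z.2 ∧ ∀ w ∈ W, 0 ≤ w ⬝ᵥ z.1 *ᵥ w} ⟨0, by simp⟩ (by
      rintro x ⟨hx1, hx2⟩ y ⟨hy1, hy2⟩ a ha b hb
      refine ⟨by simp only [Prod.snd_add, Prod.smul_snd, smul_eq_mul]; positivity, fun w hw => ?_⟩
      simp only [Prod.fst_add, Prod.smul_fst, add_mulVec, smul_mulVec, dotProduct_add,
        dotProduct_smul, smul_eq_mul]
      have := hx2 w hw
      have := hy2 w hw
      positivity)
  have hs : ∀ z, z ∈ s ↔ 0 ≤ z.2 ∧ ∀ w ∈ W, 0 ≤ w ⬝ᵥ z.1 *ᵥ w := fun z => Iff.rfl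
  obtain ⟨g, hg1, hg2⟩ := riesz_extension s (lam.toPMap (LinearMap.range π)) (by
      rintro ⟨_, q, rfl⟩ hz
      rw [hs] at hz
      change 0 ≤ lam (π q)
      rw [hlam']
      refine hpos q hz.1 (psd_of (hS q q.2).1 fun w => ?_)
      obtain ⟨a, ha, b, hb, rfl⟩ := Submodule.mem_sup.1 (hW.sup_eq_top ▸ Submodule.mem_top :
        w ∈ N ⊔ W)
      have h1 := (hS q q.2).2 a ha
      have h2 : a ⬝ᵥ L q *ᵥ b = 0 := by
        rw [dotProduct_mulVec, ← mulVec_transpose, (hS q q.2).1.eq, h1, zero_dotProduct]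
      rw [mulVec_add, h1, zero_add, add_dotProduct, h2, zero_add]
      exact hz.2 b hb) (by
      rintro ⟨M, t⟩
      obtain ⟨s₀, hs₀⟩ := exists_dominate W (L q₀) M (fun w hw hw0 => by
        refine (psd_nonneg hq₀.2 w).lt_of_ne fun h => hw0 ?_
        have : w ∈ N := psd_mulVec_eq_zero hq₀.2 h.symm
        exact (Submodule.disjoint_def.1 hW.disjoint) w this hw)
      refine ⟨⟨π (max s₀ (-t) • ⟨q₀, Submodule.subset_span hq₀⟩), _, rfl⟩, ?_⟩
      rw [hs]
      constructor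
      · change 0 ≤ τ (max s₀ (-t) • q₀) + t
        rw [map_smul, hq₀.1, smul_eq_mul, mul_one]
        linarith [le_max_right s₀ (-t)]
      · intro w hw
        change 0 ≤ w ⬝ᵥ (L (max s₀ (-t) • q₀) + M) *ᵥ w
        rw [map_smul, add_mulVec, smul_mulVec, dotProduct_add, dotProduct_smul, smul_eq_mul]
        exact hs₀ _ (le_max_left _ _) w hw)
  let Y : Matrix n n ℝ := fun a b => g (single a b 1, 0)
  have hY : ∀ M : Matrix n n ℝ, g (M, 0) = ∑ a, ∑ b, Y a b * M a b := by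
    intro M
    have : ((M, 0) : Matrix n n ℝ × ℝ) = ∑ a, ∑ b, M a b • (single a b 1, 0) := by
      ext i j
      · conv_lhs => rw [matrix_eq_sum_single M]
        simp [Prod.fst_sum]
      · simp [Prod.snd_sum]
    rw [this]
    simp only [map_sum, map_smul, smul_eq_mul, Y, mul_comm]
  refine ⟨Y, g (0, 1), psd_of ?_ fun w => ?_, hg2 _ ((hs _).2 ⟨zero_le_one, by simp⟩), ?_⟩
  · have hanti : ∀ a b, 0 ≤ g (single a b 1 - single b a 1, 0) := by
      intro a b
      refine hg2 _ ((hs _).2 ⟨le_rfl, fun w _ => ?_⟩)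
      simp [sub_mulVec, single_mulVec, dotProduct, Function.update_apply, mul_comm, mul_sub,
        Finset.sum_sub_distrib]
    ext a b
    have h1 := hanti a b
    have h2 := hanti b a
    have h3 : ∀ a b, g (single a b 1 - single b a 1, 0) = Y a b - Y b a := by
      intro a b
      rw [← map_sub]
      simp
    rw [h3] at h1 h2
    rw [transpose_apply]
    linarith
  · have := hg2 (vecMulVec w w, 0) ((hs _).2 ⟨le_rfl, fun v _ => by
      rw [vecMulVec_mulVec, dotProduct_smul, dotProduct_comm]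
      exact mul_self_nonneg _⟩)
    rw [hY] at this
    refine this.trans_eq ?_
    simp only [dotProduct, mulVec, vecMulVec_apply, Finset.mul_sum]
    refine Finset.sum_congr rfl fun a _ => Finset.sum_congr rfl fun b _ => by ring
  · intro q h1 h2
    have h3 := hg1 ⟨π ⟨q, Submodule.subset_span ⟨h1, h2⟩⟩, _, rfl⟩
    change g (L q, τ q) = lam (π _) at h3
    rw [hlam'] at h3
    rw [← hY, ← map_add, ← h3, h1]
    simp

end Vale.Agent.P256
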