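import Mathlib

/-! Formal power series solutions of polynomial systems at a generic point. -/

namespace Vale.Agent.P256

open MvPolynomial

/-- A nonzero real polynomial does not vanish on a dense set. -/
theorem dense_ne_zero {ι : Type*} [Fintype ι] (g : MvPolynomial ι ℝ) (hg : g ≠ 0) :
    Dense {x : ι → ℝ | eval x g ≠ 0} := by
  rw [dense_iff_inter_open]
  rintro U hU ⟨x, hx⟩
  by_contra hcon
  apply hg
  obtain ⟨ε, hε, hball⟩ := Metric.isOpen_iff.1 hU x hx
  apply MvPolynomial.funext_set (fun i => Set.Ioo (x i - ε) (x i + ε))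
    (fun i => Set.Ioo_infinite (by linarith))
  intro z hz
  have hzU : z ∈ U := by
    apply hball
    rw [Metric.mem_ball, dist_pi_lt_iff hε]
    intro i
    have := hz i (Set.mem_univ i)
    rw [Real.dist_eq, abs_lt]
    constructor <;> linarith [this.1, this.2]
  by_contra hne
  exact hcon ⟨z, hzU, by simpa using hne⟩

theorem countable_mvPolynomial (ι : Type) [Fintype ι] (k : Type) [CommRing k] [Countable k] :
    Countable (MvPolynomial ι k) := by
  have : Function.Injective (fun (p : MvPolynomial ι k) =>
      (Finsupp.onFinset p.support (fun m => coeff m p) (fun m hm => mem_support_iff.2 hm))) := by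
    intro p q h
    ext m
    have := congrArg (fun f => f m) h
    simpa using this
  exact this.countable

/-- A generic point: algebraically independent coordinates over a countable subfield. -/
theorem exists_generic {ι : Type} [Fintype ι] (k : Subfield ℝ) [Countable k]
    (O : Set (ι → ℝ)) (hO : IsOpen O) (hne : O.Nonempty) :
    ∃ p ∈ O, Function.Injective (aeval p : MvPolynomial ι k →ₐ[k] ℝ) := by
  have := countable_mvPolynomial ι k
  have hd : Dense (⋂ g : {g : MvPolynomial ι k // g ≠ 0},
      {x : ι → ℝ | eval x (map (algebraMap k ℝ) g.1) ≠ 0}) := by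
    apply dense_iInter_of_isOpen
    · intro g
      exact isOpen_ne_fun (MvPolynomial.continuous_eval _) continuous_const
    · intro g
      apply dense_ne_zero
      intro h
      apply g.2
      exact map_injective (algebraMap k ℝ) (algebraMap k ℝ).injective (by simpa using h)
  obtain ⟨p, hpO, hp⟩ := hd.inter_open_nonempty O hO hne
  refine ⟨p, hpO, ?_⟩
  rw [injective_iff_map_eq_zero]
  intro g hg
  by_contra hne
  have := Set.mem_iInter.1 hp ⟨g, hne⟩
  apply this
  rw [eval_map, ← aeval_def]
  exact hg

/-- The shift `X i ↦ p i + X i` into power series. -/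
noncomputable def shiftVar {ι : Type} (p : ι → ℝ) (i : ι) : MvPowerSeries ι ℝ :=
  MvPowerSeries.C (p i) + MvPowerSeries.X i

theorem formal_solution_finite {ι κ : Type} [Fintype ι] [Fintype κ]
    (k : Subfield ℝ) (p : ι → ℝ)
    (hp : Function.Injective (aeval p : MvPolynomial ι k →ₐ[k] ℝ)) (c : κ → ℝ) :
    ∃ ch : κ → MvPowerSeries ι ℝ, ∀ G : MvPolynomial (ι ⊕ κ) k,
      aeval (Sum.elim p c) G = 0 → aeval (Sum.elim (shiftVar p) ch) G = 0 := by
  classical
  set A := MvPolynomial ι k
  set K := FractionRing A
  set S := MvPowerSeries ι ℝ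
  let f0 : A →+* ℝ := (aeval p : A →ₐ[k] ℝ).toRingHom
  let g0 : A →+* S := (aeval (shiftVar p) : A →ₐ[k] S).toRingHom
  have hcc : ∀ a : A, MvPowerSeries.constantCoeff (g0 a) = f0 a := by
    intro a
    have : (MvPowerSeries.constantCoeff : S →+* ℝ).comp g0 = f0 := by
      apply MvPolynomial.ringHom_ext
      · intro r
        simp [g0, f0, S, MvPowerSeries.algebraMap_apply]
      · intro i
        simp [g0, f0, shiftVar]
    exact congrArg (fun h => h a) this
  have hf0 : ∀ y : nonZeroDivisors A, IsUnit (f0 y) := by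
    intro y
    apply IsUnit.mk0
    intro h
    have : (y : A) = 0 := hp (by simpa [f0] using h)
    exact nonZeroDivisors.ne_zero y.2 this
  have hg0 : ∀ y : nonZeroDivisors A, IsUnit (g0 y) := by
    intro y
    rw [MvPowerSeries.isUnit_iff_constantCoeff, hcc]
    exact hf0 y
  let f1 : K →+* ℝ := IsLocalization.lift hf0
  let g1 : K →+* S := IsLocalization.lift hg0
  have f1C : ∀ r : k, f1 (algebraMap A K (C r)) = algebraMap k ℝ r := fun r =>
    (IsLocalization.lift_eq hf0 _).trans (aeval_C p r)
  have f1X : ∀ i, f1 (algebraMap A K (X i)) = p i := fun i =>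
    (IsLocalization.lift_eq hf0 _).trans (aeval_X p i)
  have g1C : ∀ r : k, g1 (algebraMap A K (C r)) = algebraMap k S r := fun r =>
    (IsLocalization.lift_eq hg0 _).trans (aeval_C (shiftVar p) r)
  have g1X : ∀ i, g1 (algebraMap A K (X i)) = shiftVar p i := fun i =>
    (IsLocalization.lift_eq hg0 _).trans (aeval_X (shiftVar p) i)
  let _ : Algebra K ℝ := f1.toAlgebra
  let algS : Algebra K S := g1.toAlgebra
  let E : IntermediateField K ℝ := IntermediateField.adjoin K (Set.range c)
  have : CharZero K := by
    have : CharZero A := inferInstance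
    exact IsFractionRing.charZero_of_isFractionRing A
  have : Algebra.EssFiniteType K E := by
    rw [IntermediateField.essFiniteType_iff]
    exact ⟨Finset.univ.image c, by simp [E]⟩
  have : Algebra.FormallySmooth K E := inferInstance
  let I : Ideal S := Ideal.span (Set.range MvPowerSeries.X)
  have hcomp : (Ideal.Quotient.mk I).comp ((MvPowerSeries.C : ℝ →+* S).comp f1) =
      (Ideal.Quotient.mk I).comp g1 := by
    apply IsLocalization.ringHom_ext (nonZeroDivisors A)
    apply MvPolynomial.ringHom_ext
    · intro r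
      simp only [RingHom.comp_apply]
      rw [f1C, g1C, MvPowerSeries.algebraMap_apply]
    · intro i
      simp only [RingHom.comp_apply]
      rw [f1X, g1X]
      have : Ideal.Quotient.mk I (MvPowerSeries.X i) = 0 :=
        Ideal.Quotient.eq_zero_iff_mem.2 (Ideal.subset_span ⟨i, rfl⟩)
      rw [shiftVar, map_add, this, add_zero]
  let f2 : E →ₐ[K] S ⧸ I :=
    { (Ideal.Quotient.mk I).comp ((MvPowerSeries.C : ℝ →+* S).comp E.subtype) with
      commutes' := fun r => congrArg (fun h => h r) hcomp }
  obtain ⟨θ, -⟩ := Algebra.FormallySmooth.exists_mkₐ_comp_eq_of_isAdicComplete (I := I) f2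
  let ce : κ → E := fun j => ⟨c j, IntermediateField.subset_adjoin _ _ ⟨j, rfl⟩⟩
  refine ⟨fun j => θ (ce j), fun G hG => ?_⟩
  let e0 : MvPolynomial (ι ⊕ κ) k →+* E :=
    eval₂Hom ((algebraMap K E).comp ((algebraMap A K).comp C))
      (Sum.elim (fun i => algebraMap K E (algebraMap A K (X i))) ce)
  have h1 : (E.subtype).comp e0 = (aeval (Sum.elim p c) : MvPolynomial (ι ⊕ κ) k →ₐ[k] ℝ) := by
    apply MvPolynomial.ringHom_ext
    · intro r
      simp only [RingHom.comp_apply, e0, coe_eval₂Hom, eval₂_C, RingHom.coe_coe, aeval_C]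
      exact f1C r
    · rintro (i | j)
      · simp only [RingHom.comp_apply, e0, coe_eval₂Hom, eval₂_X, Sum.elim_inl, RingHom.coe_coe,
          aeval_X]
        exact f1X i
      · simp only [RingHom.comp_apply, e0, coe_eval₂Hom, eval₂_X, Sum.elim_inr, RingHom.coe_coe,
          aeval_X]
        rfl
  have h2 : (θ : E →+* S).comp e0 =
      (aeval (Sum.elim (shiftVar p) fun j => θ (ce j)) : MvPolynomial (ι ⊕ κ) k →ₐ[k] S) := by
    apply MvPolynomial.ringHom_ext
    · intro r
      simp only [RingHom.comp_apply, e0, coe_eval₂Hom, eval₂_C, RingHom.coe_coe, AlgHom.commutes,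
        aeval_C]
      exact g1C r
    · rintro (i | j)
      · simp only [RingHom.comp_apply, e0, coe_eval₂Hom, eval₂_X, Sum.elim_inl, RingHom.coe_coe,
          AlgHom.commutes, aeval_X]
        exact g1X i
      · simp [e0]
  have h3 : e0 G = 0 := by
    have := congrArg (fun h => h G) h1
    simp only [RingHom.comp_apply, RingHom.coe_coe, hG] at this
    exact E.subtype.injective (this.trans (map_zero _).symm)
  have := congrArg (fun h => h G) h2
  simp only [RingHom.comp_apply, RingHom.coe_coe, h3, map_zero] at this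
  exact this.symm

/-- If a system of real polynomial equations `G j (p, c) = 0` is solvable in `c` for every `p` in a
nonempty open set, then at some point `p` of this set it has a solution in formal power series. -/
theorem formal_solution {ι κ J : Type} [Fintype ι] [Fintype κ]
    (G : J → MvPolynomial (ι ⊕ κ) ℝ) (O : Set (ι → ℝ)) (hO : IsOpen O) (hne : O.Nonempty)
    (hsol : ∀ p ∈ O, ∃ c : κ → ℝ, ∀ j, eval (Sum.elim p c) (G j) = 0) :
    ∃ p ∈ O, ∃ ch : κ → MvPowerSeries ι ℝ, ∀ j, aeval (Sum.elim (shiftVar p) ch) (G j) = 0 := by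
  classical
  obtain ⟨T, hT⟩ : (Ideal.span (Set.range G)).FG := IsNoetherian.noetherian _
  let s : Finset ℝ := T.biUnion fun g => g.coeffs
  let k : Subfield ℝ := Subfield.closure (s : Set ℝ)
  have : Countable k := by
    rw [← Cardinal.mk_le_aleph0_iff]
    refine (Subfield.cardinalMk_closure_le_max _).trans (max_le ?_ le_rfl)
    exact (Cardinal.lt_aleph0_of_finite _).le
  obtain ⟨p, hpO, hp⟩ := exists_generic k O hO hne
  obtain ⟨c, hc⟩ := hsol p hpO
  obtain ⟨ch, hch⟩ := formal_solution_finite k p hp c
  refine ⟨p, hpO, ch, fun j => ?_⟩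
  have hker : Ideal.span (Set.range G) ≤ RingHom.ker (eval (Sum.elim p c)) := by
    rw [Ideal.span_le]
    rintro _ ⟨j, rfl⟩
    exact hc j
  have hker' : Ideal.span (T : Set (MvPolynomial (ι ⊕ κ) ℝ)) ≤
      RingHom.ker (aeval (Sum.elim (shiftVar p) ch) :
        MvPolynomial (ι ⊕ κ) ℝ →ₐ[ℝ] MvPowerSeries ι ℝ) := by
    rw [Ideal.span_le]
    intro g hg
    have hg0 : eval (Sum.elim p c) g = 0 := hker (hT ▸ Ideal.subset_span hg)
    obtain ⟨g', rfl⟩ : g ∈ Set.range (map (algebraMap k ℝ)) := by
      rw [mem_range_map_iff_coeffs_subset]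
      intro r hr
      exact ⟨⟨r, Subfield.subset_closure (Finset.mem_coe.2 (Finset.mem_biUnion.2
        ⟨g, hg, Finset.mem_coe.1 hr⟩))⟩, rfl⟩
    have := hch g' (by rw [aeval_def, ← eval_map]; exact hg0)
    change aeval _ (map (algebraMap k ℝ) g') = 0
    rw [aeval_map_algebraMap]
    exact this
  have : G j ∈ Ideal.span (T : Set (MvPolynomial (ι ⊕ κ) ℝ)) := by
    have : Ideal.span (T : Set (MvPolynomial (ι ⊕ κ) ℝ)) = Ideal.span (Set.range G) := hT
    rw [this]
    exact Ideal.subset_span ⟨j, rfl⟩
  exact hker' this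

end Vale.Agent.P256
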