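import Vale.Agent.P256.Defs
import Vale.Agent.P256.Duality
import Vale.Agent.P256.Blowup

/-! The hyperbolic polynomials `det X * det (det X • Z - Φ_y (adj X))`. -/

namespace Vale.Agent.P256

open MvPolynomial Filter Topology Matrix

section General

variable {n : Type} [Fintype n] [DecidableEq n]

omit [DecidableEq n] in
theorem dot_symm {M : Matrix n n ℝ} (hM : M.IsSymm) (a b : n → ℝ) :
    a ⬝ᵥ M *ᵥ b = b ⬝ᵥ M *ᵥ a := by
  rw [dotProduct_mulVec, ← mulVec_transpose, hM.eq, dotProduct_comm]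

omit [DecidableEq n] in
theorem re_mulVec (M : Matrix n n ℂ) (v : n → ℂ) :
    (fun i => ((M *ᵥ v) i).re) =
      M.map Complex.re *ᵥ (fun i => (v i).re) - M.map Complex.im *ᵥ (fun i => (v i).im) := by
  funext i
  simp [mulVec, dotProduct, Finset.sum_sub_distrib]

omit [DecidableEq n] in
theorem im_mulVec (M : Matrix n n ℂ) (v : n → ℂ) :
    (fun i => ((M *ᵥ v) i).im) =
      M.map Complex.re *ᵥ (fun i => (v i).im) + M.map Complex.im *ᵥ (fun i => (v i).re) := by
  funext i
  simp [mulVec, dotProduct, Finset.sum_add_distrib]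

theorem det_ne_zero_of_im {M : Matrix n n ℂ} (h1 : (M.map Complex.re).IsSymm) (c : ℝ)
    (h2 : ∀ r : n → ℝ, r ≠ 0 → 0 < c * (r ⬝ᵥ M.map Complex.im *ᵥ r)) : M.det ≠ 0 := by
  intro hdet
  obtain ⟨v, hv0, hv⟩ := Matrix.exists_mulVec_eq_zero_iff.2 hdet
  have hre := re_mulVec M v
  have him := im_mulVec M v
  rw [hv] at hre him
  set a : n → ℝ := fun i => (v i).re with ha
  set b : n → ℝ := fun i => (v i).im with hb
  have e1 : M.map Complex.re *ᵥ a = M.map Complex.im *ᵥ b := by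
    rw [← sub_eq_zero, ← hre]; funext i; simp
  have e2 : M.map Complex.re *ᵥ b = -(M.map Complex.im *ᵥ a) := by
    rw [eq_neg_iff_add_eq_zero, ← him]; funext i; simp
  have e3 := dot_symm h1 a b
  rw [e1, e2, dotProduct_neg] at e3
  have hnn : ∀ r : n → ℝ, 0 ≤ c * (r ⬝ᵥ M.map Complex.im *ᵥ r) := by
    intro r
    by_cases hr : r = 0
    · simp [hr]
    · exact (h2 r hr).le
  have hsum : c * (a ⬝ᵥ M.map Complex.im *ᵥ a) + c * (b ⬝ᵥ M.map Complex.im *ᵥ b) = 0 := by
    rw [← e3]; ring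
  have ha0 : a = 0 := by
    by_contra h
    linarith [h2 a h, hnn b]
  have hb0 : b = 0 := by
    by_contra h
    linarith [h2 b h, hnn a]
  apply hv0
  funext i
  exact Complex.ext (congrFun ha0 i) (congrFun hb0 i)

omit [DecidableEq n] in
theorem dot_self_pos {r : n → ℝ} (hr : r ≠ 0) : 0 < r ⬝ᵥ r := by
  simpa using dotProduct_star_self_pos_iff.2 hr

omit [DecidableEq n] in
theorem dot_self_nonneg (r : n → ℝ) : 0 ≤ r ⬝ᵥ r := by
  simpa using dotProduct_star_self_nonneg r

omit [DecidableEq n] in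
theorem pd_of {M : Matrix n n ℝ} (hM : M.IsSymm)
    (h : ∀ w, w ≠ 0 → 0 < w ⬝ᵥ M *ᵥ w) : M.PosDef :=
  PosDef.of_dotProduct_mulVec_pos (by
    rw [IsHermitian, conjTranspose_eq_transpose_of_trivial]; exact hM.eq)
    (fun w hw => by simpa using h w hw)

omit [DecidableEq n] in
theorem pd_pos {M : Matrix n n ℝ} (hM : M.PosDef) {w : n → ℝ} (hw : w ≠ 0) :
    0 < w ⬝ᵥ M *ᵥ w := by
  simpa using hM.dotProduct_mulVec_pos hw

/-- A continuous path of nonsingular symmetric matrices stays positive definite. -/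
theorem pd_path (Γ : ℝ → Matrix n n ℝ) (hc : Continuous Γ) (hs : ∀ t, (Γ t).IsSymm)
    (hd : ∀ t, 0 ≤ t → (Γ t).det ≠ 0) (h0 : (Γ 0).PosDef) : ∀ t, 0 ≤ t → (Γ t).PosDef := by
  have hcont : Continuous fun z : ℝ × (n → ℝ) => z.2 ⬝ᵥ Γ z.1 *ᵥ z.2 := by
    have : ∀ i j, Continuous fun z : ℝ × (n → ℝ) => Γ z.1 i j := fun i j =>
      (hc.matrix_elem i j).comp continuous_fst
    simp only [dotProduct, mulVec]
    exact continuous_finsetSum _ fun i _ => ((continuous_apply i).comp continuous_snd).mul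
      (continuous_finsetSum _ fun j _ => (this i j).mul ((continuous_apply j).comp continuous_snd))
  have hu : IsOpen {t | (Γ t).PosDef} := by
    rw [isOpen_iff_mem_nhds]
    intro t ht
    have := (isCompact_sphere (0 : n → ℝ) 1).eventually_forall_of_forall_eventually
      (x₀ := t) (P := fun s w => 0 < w ⬝ᵥ Γ s *ᵥ w) (fun w hw => by
        have hw0 : w ≠ 0 := by rintro rfl; simp at hw
        exact hcont.continuousAt.eventually (lt_mem_nhds (pd_pos ht hw0)))
    filter_upwards [this] with s hs'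
    refine pd_of (hs s) fun w hw => ?_
    have hn : 0 < ‖w‖ := norm_pos_iff.2 hw
    have h1 := hs' (‖w‖⁻¹ • w) (by simp [norm_smul, hn.ne'])
    rw [quad_smul] at h1
    exact (mul_pos_iff_of_pos_left (by positivity)).1 h1
  have hv : IsOpen {t | ∃ w, w ⬝ᵥ Γ t *ᵥ w < 0} := by
    rw [Set.ofPred_exists]
    exact isOpen_iUnion fun w =>
      isOpen_lt (hcont.comp (continuous_id.prodMk continuous_const)) continuous_const
  have := (isPreconnected_Ici (a := (0 : ℝ))).subset_left_of_subset_union hu hv (by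
      rw [Set.disjoint_left]
      rintro t ht ⟨w, hw⟩
      exact absurd (psd_nonneg (PosDef.posSemidef ht) w) (not_le.2 hw)) (by
      intro t ht
      by_cases h : ∃ w, w ⬝ᵥ Γ t *ᵥ w < 0
      · exact Or.inr h
      · push Not at h
        exact Or.inl ((psd_of (hs t) h).posDef_iff_det_ne_zero.2 (hd t ht)))
    ⟨0, Set.self_mem_Ici, h0⟩
  exact fun t ht => this ht

theorem det_homog {σ : Type} (M : Matrix n n (MvPolynomial σ ℝ)) (d : n → ℕ)
    (h : ∀ i j, (M i j).IsHomogeneous (d i)) : M.det.IsHomogeneous (∑ i, d i) := by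
  rw [← det_transpose, det_apply]
  refine IsHomogeneous.sum _ _ _ fun s _ => ?_
  rw [Units.smul_def]
  exact (homogeneousSubmodule σ ℝ _).toAddSubgroup.zsmul_mem
    (IsHomogeneous.prod _ _ _ fun i _ => h i (s i)) _

theorem inv_sub_inv_psd {X : Matrix n n ℝ} (hX : X.PosDef) {s : ℝ} (hs : 0 ≤ s) :
    (X⁻¹ - (X + s • 1)⁻¹).PosSemidef := by
  have h1 : (X + s • (1 : Matrix n n ℝ)).PosDef := hX.add_posSemidef (PosSemidef.one.smul hs)
  have hu : IsUnit X.det := (isUnit_iff_isUnit_det _).1 hX.isUnit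
  have hu1 : IsUnit (X + s • (1 : Matrix n n ℝ)).det := (isUnit_iff_isUnit_det _).1 h1.isUnit
  have h2 : (s ^ 2 • X⁻¹ + s • (1 : Matrix n n ℝ)).PosSemidef :=
    (hX.inv.posSemidef.smul (sq_nonneg s)).add (PosSemidef.one.smul hs)
  have h3 := h2.conjTranspose_mul_mul_same (X + s • (1 : Matrix n n ℝ))⁻¹
  rw [h1.inv.1.eq] at h3
  have h4 : s ^ 2 • X⁻¹ + s • (1 : Matrix n n ℝ) =
      (X + s • 1) * X⁻¹ * (X + s • 1) - (X + s • 1) := by
    simp only [add_mul, mul_add, mul_nonsing_inv X hu, smul_mul_assoc, one_mul, mul_smul_comm,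
      mul_one, nonsing_inv_mul X hu, sq]
    module
  have h5 : (X + s • (1 : Matrix n n ℝ))⁻¹ * ((X + s • 1) * X⁻¹ * (X + s • 1) - (X + s • 1)) *
      (X + s • 1)⁻¹ = X⁻¹ - (X + s • 1)⁻¹ := by
    rw [mul_sub, sub_mul, nonsing_inv_mul _ hu1, one_mul, ← mul_assoc, ← mul_assoc,
      nonsing_inv_mul _ hu1, one_mul, mul_assoc, mul_nonsing_inv _ hu1, mul_one]
  rwa [h4, h5] at h3

end General

variable {α β γ : Type} [Fintype α] [Fintype β] [Fintype γ] [DecidableEq β] [DecidableEq γ]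

/-- Index set of the variables `(X, Z, y)`. -/
abbrev Var (α β γ : Type) := Sym2 β ⊕ Sym2 γ ⊕ α

section Alg

variable {A : Type} [CommRing A] [Algebra ℝ A]

def Xm (x : Var α β γ → A) : Matrix β β A := fun i j => x (Sum.inl s(i, j))
def Zm (x : Var α β γ → A) : Matrix γ γ A := fun i j => x (Sum.inr (Sum.inl s(i, j)))
def yv (x : Var α β γ → A) : α → A := fun a => x (Sum.inr (Sum.inr a))

def Phi (T : α × β × γ → α × β × γ → ℝ) (y : α → A) (W : Matrix β β A) : Matrix γ γ A :=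
  fun k l => ∑ a, ∑ b, ∑ i, ∑ j, T (a, i, k) (b, j, l) • (y a * y b * W i j)

def Gm (T : α × β × γ → α × β × γ → ℝ) (x : Var α β γ → A) : Matrix γ γ A :=
  (Xm x).det • Zm x - Phi T (yv x) (adjugate (Xm x))

def Pf (T : α × β × γ → α × β × γ → ℝ) (x : Var α β γ → A) : A := (Xm x).det * (Gm T x).det

omit [Fintype α] [Fintype β] [Fintype γ] [DecidableEq β] [DecidableEq γ] [CommRing A]
  [Algebra ℝ A] in
theorem Xm_symm (x : Var α β γ → A) : (Xm x).IsSymm := by
  ext i j; simp [Xm, Sym2.eq_swap]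

omit [Fintype α] [Fintype β] [Fintype γ] [DecidableEq β] [DecidableEq γ] [CommRing A]
  [Algebra ℝ A] in
theorem Zm_symm (x : Var α β γ → A) : (Zm x).IsSymm := by
  ext i j; simp [Zm, Sym2.eq_swap]

variable (T : α × β × γ → α × β × γ → ℝ)

omit [Fintype γ] [DecidableEq β] [DecidableEq γ] in
theorem Phi_symm (hT : ∀ u v, T u v = T v u) (y : α → A) {W : Matrix β β A} (hW : W.IsSymm) :
    (Phi T y W).IsSymm := by
  ext k l
  simp only [transpose_apply, Phi]
  rw [Finset.sum_comm]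
  refine Finset.sum_congr rfl fun a _ => Finset.sum_congr rfl fun b _ => ?_
  rw [Finset.sum_comm]
  refine Finset.sum_congr rfl fun i _ => Finset.sum_congr rfl fun j _ => ?_
  rw [hT, hW.apply i j, mul_comm (y b)]

omit [Fintype γ] [DecidableEq β] [DecidableEq γ] in
theorem Phi_smul (y : α → A) (c : A) (W : Matrix β β A) : Phi T y (c • W) = c • Phi T y W := by
  ext k l
  simp only [Phi, Matrix.smul_apply, smul_eq_mul, Finset.mul_sum, mul_smul_comm]
  refine Finset.sum_congr rfl fun a _ => Finset.sum_congr rfl fun b _ =>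
    Finset.sum_congr rfl fun i _ => Finset.sum_congr rfl fun j _ => ?_
  congr 1; ring

omit [Fintype γ] [DecidableEq β] [DecidableEq γ] in
theorem Phi_sub (y : α → A) (W W' : Matrix β β A) :
    Phi T y (W - W') = Phi T y W - Phi T y W' := by
  ext k l
  simp only [Phi, Matrix.sub_apply, mul_sub, smul_sub, Finset.sum_sub_distrib]

omit [Fintype γ] [DecidableEq β] [DecidableEq γ] in
theorem Phi_neg_left (y : α → A) (W : Matrix β β A) : Phi T (-y) W = Phi T y W := by
  ext k l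
  simp [Phi]

omit [Fintype γ] [DecidableEq γ] in
theorem Gm_map {A' : Type} [CommRing A'] [Algebra ℝ A'] (f : A →ₐ[ℝ] A') (x : Var α β γ → A) :
    (Gm T x).map f = Gm T (f ∘ x) := by
  have h1 : Xm (f ∘ x) = f.toRingHom.mapMatrix (Xm x) := rfl
  ext k l
  simp only [Gm, map_apply, Matrix.sub_apply, Matrix.smul_apply, smul_eq_mul,
    map_sub, map_mul, h1,
    ← RingHom.map_det, ← RingHom.map_adjugate, Phi, map_sum, map_smul]
  rfl

theorem Pf_map {A' : Type} [CommRing A'] [Algebra ℝ A'] (f : A →ₐ[ℝ] A') (x : Var α β γ → A) :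
    f (Pf T x) = Pf T (f ∘ x) := by
  rw [Pf, Pf, map_mul, AlgHom.map_det, AlgHom.map_det, ← Gm_map]
  rfl

end Alg

variable (T : α × β × γ → α × β × γ → ℝ)

/-- The hyperbolic polynomial. -/
noncomputable def poly : MvPolynomial (Var α β γ) ℝ := Pf T X

theorem aeval_poly {A : Type} [CommRing A] [Algebra ℝ A] (x : Var α β γ → A) :
    aeval x (poly T) = Pf T x := by
  rw [poly, Pf_map]
  congr 1
  funext i
  simp

theorem eval_poly (x : Var α β γ → ℝ) : eval x (poly T) = Pf T x := aeval_poly T x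

theorem poly_homog : ∃ d, (poly T).IsHomogeneous d := by
  have hX : (Xm (X : Var α β γ → MvPolynomial (Var α β γ) ℝ)).det.IsHomogeneous
      (Fintype.card β) := by
    simpa using det_homog (Xm (X : Var α β γ → MvPolynomial (Var α β γ) ℝ)) (fun _ => 1)
      fun i j => isHomogeneous_X _ _
  have hadj : ∀ i j, (adjugate (Xm (X : Var α β γ → MvPolynomial (Var α β γ) ℝ)) i j).IsHomogeneous
      (Fintype.card β - 1) := by
    intro i j
    rw [adjugate_apply]
    have := det_homog ((Xm (X : Var α β γ → MvPolynomial (Var α β γ) ℝ)).updateRow j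
      (Pi.single i 1)) (fun k => if k = j then 0 else 1) (fun k l => by
        by_cases hk : k = j
        · subst hk
          rw [updateRow_self, if_pos rfl, Pi.single_apply]
          split_ifs
          · exact isHomogeneous_one _ _
          · exact isHomogeneous_zero _ _ _
        · rw [updateRow_ne hk, if_neg hk]
          exact isHomogeneous_X _ _)
    have h2 : (∑ k : β, if k = j then 0 else 1) = Fintype.card β - 1 := by
      rw [Finset.sum_ite]
      simp [Finset.filter_ne', Finset.card_erase_of_mem]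
    rwa [h2] at this
  refine ⟨_, hX.mul (det_homog _ (fun _ => Fintype.card β + 1) fun k l => ?_)⟩
  refine (hX.mul (isHomogeneous_X _ _)).sub ?_
  refine IsHomogeneous.sum _ _ _ fun a _ => IsHomogeneous.sum _ _ _ fun b _ =>
    IsHomogeneous.sum _ _ _ fun i _ => IsHomogeneous.sum _ _ _ fun j _ => ?_
  refine (homogeneousSubmodule _ ℝ _).smul_mem _ ?_
  have h1 := ((isHomogeneous_X ℝ (Sum.inr (Sum.inr a) : Var α β γ)).mul
    (isHomogeneous_X ℝ (Sum.inr (Sum.inr b) : Var α β γ))).mul (hadj i j)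
  have h2 : 0 < Fintype.card β := Fintype.card_pos_iff.2 ⟨i⟩
  rwa [show 1 + 1 + (Fintype.card β - 1) = Fintype.card β + 1 by omega] at h1

/-- The hyperbolicity direction `(I, I, 0)`. -/
def ee : Var α β γ → ℝ :=
  Sum.elim (fun s => if s.IsDiag then 1 else 0)
    (Sum.elim (fun s => if s.IsDiag then 1 else 0) fun _ => 0)

omit [Fintype α] [Fintype β] [Fintype γ] in
theorem Xm_ee : Xm (ee : Var α β γ → ℝ) = 1 := by
  ext i j; simp [Xm, ee, one_apply]

omit [Fintype α] [Fintype β] [Fintype γ] in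
theorem Zm_ee : Zm (ee : Var α β γ → ℝ) = 1 := by
  ext i j; simp [Zm, ee, one_apply]

omit [Fintype γ] in
theorem Gm_ee : Gm T (ee : Var α β γ → ℝ) = 1 := by
  have : Phi T (yv (ee : Var α β γ → ℝ)) 1 = 0 := by
    ext k l; simp [Phi, yv, ee]
  simp [Gm, Xm_ee, Zm_ee, this]

omit [Fintype γ] [DecidableEq γ] in
theorem Gm_eq {F : Type} [Field F] [Algebra ℝ F] (x : Var α β γ → F) (h : (Xm x).det ≠ 0) :
    Gm T x = (Xm x).det • (Zm x - Phi T (yv x) (Xm x)⁻¹) := by
  rw [Gm, smul_sub, ← Phi_smul, inv_def, smul_smul, Ring.mul_inverse_cancel _ h.isUnit, one_smul]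

theorem Pf_ne_zero {F : Type} [Field F] [Algebra ℝ F] (x : Var α β γ → F) (h : (Xm x).det ≠ 0)
    (h' : (Zm x - Phi T (yv x) (Xm x)⁻¹).det ≠ 0) : Pf T x ≠ 0 := by
  rw [Pf, Gm_eq T x h, det_smul]
  exact mul_ne_zero h (mul_ne_zero (pow_ne_zero _ h) h')

theorem poly_hyperbolic (hT : ∀ u v, T u v = T v u)
    (hpos : ∀ (y : α → ℝ) (W : Matrix β β ℝ), W.PosSemidef → (Phi T y W).PosSemidef) :
    IsHyperbolic (poly T) (ee : Var α β γ → ℝ) := by
  refine ⟨poly_homog T, by simp [eval_poly, Pf, Xm_ee, Gm_ee], fun x z hz => ?_⟩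
  by_contra him
  rw [aeval_poly] at hz
  set w : Var α β γ → ℂ := fun i => z * (ee i : ℝ) - (x i : ℝ) with hw
  have hXre : (Xm w).map Complex.re = z.re • (1 : Matrix β β ℝ) - Xm x := by
    rw [← Xm_ee (α := α) (γ := γ)]
    ext i j; simp [Xm, w]
  have hXim : (Xm w).map Complex.im = z.im • (1 : Matrix β β ℝ) := by
    rw [← Xm_ee (α := α) (γ := γ)]
    ext i j; simp [Xm, w]
  have hZim : (Zm w).map Complex.im = z.im • (1 : Matrix γ γ ℝ) := by
    rw [← Zm_ee (α := α) (β := β)]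
    ext i j; simp [Zm, w]
  have hXs : ((Xm w).map Complex.re).IsSymm := (Xm_symm w).map _
  have hdX : (Xm w).det ≠ 0 := det_ne_zero_of_im hXs z.im fun r hr => by
    rw [hXim, smul_mulVec, one_mulVec, dotProduct_smul, smul_eq_mul, ← mul_assoc]
    exact mul_pos (mul_self_pos.2 him) (dot_self_pos hr)
  have hWs : ((Xm w)⁻¹).IsSymm := by
    rw [IsSymm, transpose_nonsing_inv, (Xm_symm w).eq]
  have hW2 : ((-z.im) • ((Xm w)⁻¹).map Complex.im).PosSemidef := by
    refine psd_of ((hWs.map _).smul _) fun r => ?_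
    have h1 := re_mulVec (Xm w) ((Xm w)⁻¹ *ᵥ fun i => (r i : ℂ))
    have h2 := im_mulVec (Xm w) ((Xm w)⁻¹ *ᵥ fun i => (r i : ℂ))
    have h3 := im_mulVec (Xm w)⁻¹ fun i => (r i : ℂ)
    rw [mulVec_mulVec, mul_nonsing_inv _ hdX.isUnit, one_mulVec, hXim] at h1 h2
    simp only [Complex.ofReal_re, Complex.ofReal_im] at h1 h2 h3
    set a : β → ℝ := fun i => (((Xm w)⁻¹ *ᵥ fun i => (r i : ℂ)) i).re
    set b : β → ℝ := fun i => (((Xm w)⁻¹ *ᵥ fun i => (r i : ℂ)) i).im
    have h4 : ((Xm w)⁻¹).map Complex.im *ᵥ r = b := by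
      rw [h3, show (fun _ : β => (0 : ℝ)) = 0 from rfl, mulVec_zero, zero_add]
    have h5 : (Xm w).map Complex.re *ᵥ b = -(z.im • a) := by
      rw [eq_neg_iff_add_eq_zero]
      rw [smul_mulVec, one_mulVec] at h2
      exact h2.symm
    rw [smul_mulVec, h4, dotProduct_smul, smul_eq_mul]
    have h6 : r = (Xm w).map Complex.re *ᵥ a - z.im • b := by
      rw [smul_mulVec, one_mulVec] at h1
      exact h1
    have h7 : r ⬝ᵥ b = -(z.im * (a ⬝ᵥ a)) - z.im * (b ⬝ᵥ b) := by
      conv_lhs => rw [h6]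
      rw [sub_dotProduct, dotProduct_comm _ b, dot_symm hXs, h5, dotProduct_neg, dotProduct_smul,
        smul_dotProduct, smul_eq_mul, smul_eq_mul]
    rw [h7]
    nlinarith [mul_nonneg (mul_self_nonneg z.im) (dot_self_nonneg a),
      mul_nonneg (mul_self_nonneg z.im) (dot_self_nonneg b)]
  have hPhi : (Phi T (yv w) (Xm w)⁻¹).map Complex.im =
      Phi T (yv x) (((Xm w)⁻¹).map Complex.im) := by
    ext k l
    simp [Phi, yv, w, ee]
  refine Pf_ne_zero T w hdX (det_ne_zero_of_im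
    (((Zm_symm w).sub (Phi_symm T hT _ hWs)).map _) z.im fun r hr => ?_) hz
  have h1 : (Zm w - Phi T (yv w) (Xm w)⁻¹).map Complex.im =
      z.im • (1 : Matrix γ γ ℝ) - Phi T (yv x) (((Xm w)⁻¹).map Complex.im) := by
    rw [← hZim, ← hPhi]
    ext k l; simp
  have h2 := psd_nonneg (hpos (yv x) _ hW2) r
  rw [Phi_smul, smul_mulVec, dotProduct_smul, smul_eq_mul] at h2
  rw [h1, sub_mulVec, smul_mulVec, one_mulVec, dotProduct_sub, dotProduct_smul, smul_eq_mul]
  nlinarith [mul_pos (mul_self_pos.2 him) (dot_self_pos hr)]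

theorem mem_cone
    (hpos : ∀ (y : α → ℝ) (W : Matrix β β ℝ), W.PosSemidef → (Phi T y W).PosSemidef)
    (x : Var α β γ → ℝ) (hX : (Xm x).PosDef)
    (hZ : (Zm x - Phi T (yv x) (Xm x)⁻¹).PosSemidef) : x ∈ hypCone (poly T) ee := by
  intro t ht
  by_contra hneg
  push Not at hneg
  rw [eval_poly] at ht
  set w : Var α β γ → ℝ := fun i => t * ee i - x i with hw
  have hXw : Xm w = -(Xm x + (-t) • 1) := by
    rw [← Xm_ee (α := α) (γ := γ)]
    ext i j; simp [Xm, w]; ring
  have hZw : Zm w = -(Zm x + (-t) • 1) := by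
    rw [← Zm_ee (α := α) (β := β)]
    ext i j; simp [Zm, w]; ring
  have hyw : yv w = -yv x := by
    funext a; simp [yv, w, ee]
  have h1 : (Xm x + (-t) • (1 : Matrix β β ℝ)).PosDef :=
    hX.add_posSemidef (PosSemidef.one.smul (by linarith))
  refine Pf_ne_zero T w ?_ ?_ ht
  · rw [hXw, det_neg]
    exact mul_ne_zero (by simp) h1.det_pos.ne'
  · have h2 : (Xm w)⁻¹ = (-1 : ℝ) • (Xm x + (-t) • 1)⁻¹ := by
      rw [hXw, neg_one_smul]
      apply inv_eq_right_inv
      rw [neg_mul_neg, mul_nonsing_inv _ ((isUnit_iff_isUnit_det _).1 h1.isUnit)]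
    have h3 := hpos (yv x) _ (inv_sub_inv_psd hX (s := -t) (by linarith))
    have h4 : ((-t) • (1 : Matrix γ γ ℝ)).PosDef := PosDef.one.smul (by linarith)
    have h5 := (h4.add_posSemidef hZ).add_posSemidef h3
    have h6 : Zm w - Phi T (yv w) (Xm w)⁻¹ = -((-t) • (1 : Matrix γ γ ℝ) +
        (Zm x - Phi T (yv x) (Xm x)⁻¹) + Phi T (yv x) ((Xm x)⁻¹ - (Xm x + (-t) • 1)⁻¹)) := by
      rw [hZw, hyw, h2, Phi_neg_left, Phi_smul, Phi_sub]
      module
    rw [h6, det_neg]
    exact mul_ne_zero (by simp) h5.det_pos.ne'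

theorem of_mem_cone (hT : ∀ u v, T u v = T v u) (x : Var α β γ → ℝ)
    (hx : x ∈ hypCone (poly T) ee) (τ : ℝ) (hτ : 0 ≤ τ) :
    (Xm (ee + τ • x)).PosDef ∧
      (Zm (ee + τ • x) - Phi T (yv (ee + τ • x)) (Xm (ee + τ • x))⁻¹).PosSemidef := by
  have hne : ∀ τ : ℝ, 0 ≤ τ → Pf T (ee + τ • x) ≠ 0 := by
    intro τ hτ h
    rcases hτ.lt_or_eq with h0 | h0
    · obtain ⟨d, hd⟩ := poly_homog T
      have h1 := hx (-τ⁻¹) (by
        have h2 : (fun i => -τ⁻¹ * ee i - x i) = (-τ⁻¹) • (ee + τ • x) := by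
          funext i
          simp only [Pi.smul_apply, Pi.add_apply, smul_eq_mul]
          field_simp
          ring
        rw [h2, eval_smul_homog hd, eval_poly, h, mul_zero])
      have := inv_pos.2 h0
      linarith
    · subst h0
      simp [Pf, Xm_ee, Gm_ee] at h
  have hc : Continuous fun τ : ℝ => (ee : Var α β γ → ℝ) + τ • x := by fun_prop
  have hX := pd_path (fun τ => Xm (ee + τ • x))
    (continuous_pi fun i => continuous_pi fun j => (continuous_apply _).comp hc)
    (fun _ => Xm_symm _) (fun τ hτ => left_ne_zero_of_mul (hne τ hτ))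
    (by simpa [Xm_ee] using PosDef.one) τ hτ
  have hG := pd_path (fun τ => Gm T (ee + τ • x))
    (continuous_pi fun k => continuous_pi fun l => by
      have h1 : ∀ w : Var α β γ → ℝ, Gm T w k l = eval w (Gm T X k l) := by
        intro w
        have := congrFun (congrFun (Gm_map T (aeval w : MvPolynomial (Var α β γ) ℝ →ₐ[ℝ] ℝ) X) k) l
        rw [show (⇑(aeval w : MvPolynomial (Var α β γ) ℝ →ₐ[ℝ] ℝ) ∘ X) = w from
          funext fun i => by simp] at this
        exact this.symm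
      simp only [h1]
      exact (MvPolynomial.continuous_eval _).comp hc)
    (fun τ => ((Zm_symm _).smul _).sub (Phi_symm T hT _ (by
      rw [IsSymm, adjugate_transpose, (Xm_symm _).eq])))
    (fun τ hτ => right_ne_zero_of_mul (hne τ hτ))
    (by simpa [Gm_ee] using PosDef.one) τ hτ
  refine ⟨hX, ?_⟩
  have h1 := hG.posSemidef.smul (inv_nonneg.2 hX.det_pos.le)
  rwa [Gm_eq T _ hX.det_pos.ne', smul_smul, inv_mul_cancel₀ hX.det_pos.ne', one_smul] at h1

end Vale.Agent.P256
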