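import Vale.Agent.P256.Slack

/-! The blow-up computation and the main theorem. -/

namespace Vale.Agent.P256

open MvPolynomial Filter Topology Matrix

/-- Parameters `(z, a, R)` of the dual family. -/
abbrev Par := Fin 3 ⊕ Fin 3 ⊕ (Om × Om)

def wb (p : Par → ℝ) : Om → ℝ := fun j => Option.elim j 1 fun j => p (Sum.inr (Sum.inl j))

def vp (p : Par → ℝ) : Gi → ℝ := Sum.elim (wb p) fun i => p (Sum.inl i)

def R2 (p : Par → ℝ) : Matrix Om Om ℝ := fun i j => p (Sum.inr (Sum.inr (i, j)))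

def Rp (p : Par → ℝ) : Matrix Om Bi ℝ := fun i => Sum.elim ((1 : Matrix Om Om ℝ) i) (R2 p i)

theorem vp_poly (k : Gi) : IsPoly fun p => vp p k := by
  rcases k with (_ | j) | i
  · exact IsPoly.const 1
  · exact IsPoly.coord _
  · exact IsPoly.coord _

theorem Rp_poly (i : Om) (j : Bi) : IsPoly fun p => Rp p i j := by
  rcases j with j | j
  · exact IsPoly.const _
  · exact IsPoly.coord _

theorem Qb_poly {ι : Type} {D D' : (ι → ℝ) → Om → Om → ℝ} (h : ∀ i j, IsPoly fun p => D p i j)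
    (h' : ∀ i j, IsPoly fun p => D' p i j) : IsPoly fun p => Qb (D p) (D' p) := by
  have t : IsPoly fun p => tr3 (D p) := IsPoly.sum _ fun i _ => h _ _
  have t' : IsPoly fun p => tr3 (D' p) := IsPoly.sum _ fun i _ => h' _ _
  have s : ∀ f g : Fin 3 → Om, IsPoly fun p => ∑ i, D p (f i) (g i) * D' p (f i) (g i) :=
    fun f g => IsPoly.sum _ fun i _ => (h _ _).mul (h' _ _)
  exact ((((((IsPoly.const 5).mul (s some fun _ => none)).add
    ((IsPoly.const 5).mul (s (fun _ => none) some))).add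
    ((IsPoly.const 4).mul (((h _ _).sub t).mul ((h' _ _).sub t')))).add
    ((IsPoly.const 2).mul (s some some))).add
    ((IsPoly.const 2).mul (s some fun i => some (i + 1)))).sub (t.mul t')

theorem ell_poly (x : Var Om Bi Gi → ℝ) : IsPoly fun p => ell (vp p) (Rp p) x := by
  have hXi : ∀ u i j, IsPoly fun p => Xi (yv x) u (vp p) i j := by
    intro u i j
    refine ((IsPoly.const _).mul (vp_poly _)).add (IsPoly.mul ?_ (IsPoly.const _))
    cases i with
    | none => exact IsPoly.const 0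
    | some i => exact ((IsPoly.const _).mul (vp_poly _)).sub ((vp_poly _).mul (IsPoly.const _))
  have hRt : ∀ u i j, IsPoly fun p => Rt (Rp p) (vp p) u i j := fun u i j =>
    (IsPoly.sum Finset.univ fun k _ => (Rp_poly i k).mul (IsPoly.const (u k))).mul (vp_poly _)
  refine (IsPoly.sub ?_ ((IsPoly.const 2).mul (IsPoly.sum _ fun j _ =>
    Qb_poly (hXi _) (hRt _)))).add (IsPoly.sum _ fun i _ => IsPoly.sum _ fun j _ =>
      (IsPoly.const _).mul (Qb_poly (hRt _) (hRt _)))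
  exact IsPoly.sum _ fun k _ => (vp_poly k).mul
    (IsPoly.sum Finset.univ fun l _ => (IsPoly.const (Zm x k l)).mul (vp_poly l))

noncomputable def U2 (p : Par → ℝ) (ε : ℝ) : Matrix Om Om ℝ :=
  fun i j => Option.elim j ((ε ^ 2)⁻¹ * wb p i) fun j => if i = some j then 1 else 0

def U2i (p : Par → ℝ) (ε : ℝ) : Matrix Om Om ℝ :=
  fun i j => Option.elim i (Option.elim j (ε ^ 2) fun _ => 0) fun i =>
    Option.elim j (-p (Sum.inr (Sum.inl i))) fun j => if i = j then 1 else 0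

theorem U2_mul (p : Par → ℝ) {ε : ℝ} (hε : ε ≠ 0) : U2 p ε * U2i p ε = 1 := by
  ext i j
  rcases i with _ | i <;> rcases j with _ | j <;>
    simp [mul_apply, Fintype.sum_option, U2, U2i, wb, one_apply, hε]
  field_simp
  ring

noncomputable def Um (p : Par → ℝ) (ε : ℝ) : Matrix Bi Bi ℝ := fromBlocks 1 0 (R2 p)ᵀ (U2 p ε)

def Bm (p : Par → ℝ) (ε : ℝ) : Matrix Bi Bi ℝ :=
  fromBlocks 1 0 (-(U2i p ε * (R2 p)ᵀ)) (U2i p ε)

theorem Um_mul (p : Par → ℝ) {ε : ℝ} (hε : ε ≠ 0) : Um p ε * Bm p ε = 1 := by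
  rw [Um, Bm, fromBlocks_multiply]
  simp [← Matrix.mul_assoc, U2_mul p hε]

def yp (p : Par → ℝ) : Om → ℝ := fun i => Option.elim i 1 fun i => p (Sum.inl i)

def sc (ε : ℝ) (i : Om) : ℝ := Option.elim i (ε ^ 2) fun _ => ε

def phiF (p : Par → ℝ) (ε : ℝ) (t : Par → ℝ) : Par → ℝ :=
  Sum.elim (fun i => ε ^ 5 * t (Sum.inr (Sum.inr (some i, none))) + ε ^ 7 * t (Sum.inl i))
    (Sum.elim (fun j => ε * t (Sum.inr (Sum.inl j))) fun ij =>
      wb p ij.2 * (sc ε ij.1 * t (Sum.inr (Sum.inr (ij.1, none)))) +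
        Option.elim ij.2 0 fun _ => ε ^ 7 * t (Sum.inr (Sum.inr ij)))

def phiL (p : Par → ℝ) (ε : ℝ) : (Par → ℝ) →ₗ[ℝ] (Par → ℝ) where
  toFun := phiF p ε
  map_add' t t' := by
    funext k
    rcases k with i | j | ⟨i, _ | j⟩ <;> simp [phiF] <;> ring
  map_smul' c t := by
    funext k
    rcases k with i | j | ⟨i, _ | j⟩ <;> simp [phiF] <;> ring

def ta (t : Par → ℝ) : Om → ℝ := fun j => Option.elim j 0 fun j => t (Sum.inr (Sum.inl j))

def zt (ε : ℝ) (t : Par → ℝ) : Om → ℝ := fun i => Option.elim i 0 fun i =>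
  ε * t (Sum.inr (Sum.inr (some i, none))) + ε ^ 3 * t (Sum.inl i)

/-- The rescaled summands of the slack. -/
def EE (p t : Par → ℝ) (k : Bi) (ε : ℝ) : Om → Om → ℝ := fun i j =>
  Sum.elim (fun i₀ => zt ε t i * R2 p i₀ j) (fun j₀ => Option.elim j₀
    (Option.elim i (-t (Sum.inr (Sum.inr (none, none))) * (wb p j + ε * ta t j)) fun i =>
      -t (Sum.inr (Sum.inr (some i, none))) * ta t j + ε * t (Sum.inl i) * wb p j)
    fun j' => -(ε ^ 3 * t (Sum.inr (Sum.inr (i, some j'))) * (wb p j + ε * ta t j)) +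
      zt ε t i * if j = some j' then 1 else 0) k

theorem slack_term (p t : Par → ℝ) {ε : ℝ} (hε : ε ≠ 0) (k : Bi) :
    Xi (yp p) (fun i => Um p ε i k) (vp (p + phiF p ε t)) -
      Rt (Rp (p + phiF p ε t)) (vp (p + phiF p ε t)) (fun j => Bm p ε k j) =
      ε ^ 4 • EE p t k ε := by
  funext i j
  rcases k with i₀ | _ | j₀ <;> rcases i with _ | i <;> rcases j with _ | j <;>
    simp [Xi, Rt, zeta, yp, vp, wb, Rp, R2, Um, Bm, U2, U2i, EE, zt, ta, phiF, sc, mulVec,
      dotProduct, Fintype.sum_sum_type, Fintype.sum_option, mul_apply, one_apply] <;>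
    first
      | ring1
      | (split_ifs <;> ring1)
      | (field_simp; ring1)

theorem EE_cont (p t : Par → ℝ) (k : Bi) : Continuous (EE p t k) := by
  refine continuous_pi fun i => continuous_pi fun j => ?_
  rcases k with i₀ | _ | j₀ <;> rcases i with _ | i <;>
    simp only [EE, zt, Sum.elim_inl, Sum.elim_inr, Option.elim_none, Option.elim_some] <;>
    fun_prop

theorem Qb_cont : Continuous fun D : Om → Om → ℝ => Qb D D := by
  simp only [Qb_apply, Qf, tr3]
  fun_prop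

theorem abs_comb_le {a b x y N c : ℝ} (hx : |x| ≤ N) (hy : |y| ≤ N) (ha : |a| ≤ c)
    (hb : |b| ≤ c) : |a * x + b * y| ≤ 2 * c * N := by
  have hc : 0 ≤ c := (abs_nonneg a).trans ha
  have h1 := mul_le_mul ha hx (abs_nonneg x) hc
  have h2 := mul_le_mul hb hy (abs_nonneg y) hc
  have h3 := abs_add_le (a * x) (b * y)
  rw [abs_mul, abs_mul] at h3
  linarith

theorem phi_bound (p : Par → ℝ) (hp : ∀ j, |wb p j| ≤ 1) {ε : ℝ} (h0 : 0 < ε) (h1 : ε ≤ 1)
    (t : Par → ℝ) : ‖phiL p ε t‖ ≤ 2 * ε * ‖t‖ := by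
  have ht : ∀ k, |t k| ≤ ‖t‖ := fun k => norm_le_pi_norm t k
  have hpow : ∀ m : ℕ, |ε ^ (m + 1)| ≤ ε := fun m => by
    rw [abs_of_pos (pow_pos h0 _), pow_succ]
    exact mul_le_of_le_one_left h0.le (pow_le_one₀ h0.le h1)
  have hsc : ∀ i j, |wb p j * sc ε i| ≤ ε := fun i j => by
    have h2 : |sc ε i| ≤ ε := by
      cases i with
      | none => exact hpow 1
      | some i => exact (abs_of_pos h0).le
    rw [abs_mul]
    exact (mul_le_of_le_one_left (abs_nonneg _) (hp j)).trans h2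
  have hz : |(0 : ℝ)| ≤ ε := by simpa using h0.le
  rw [pi_norm_le_iff_of_nonneg (by positivity)]
  intro k
  rcases k with i | j | ⟨i, _ | j⟩
  · exact abs_comb_le (ht _) (ht _) (hpow 4) (hpow 6)
  · have := abs_comb_le (ht (Sum.inr (Sum.inl j))) (ht (Sum.inr (Sum.inl j)))
      (abs_of_pos h0).le hz
    simpa [phiL, phiF] using this
  · have := abs_comb_le (ht (Sum.inr (Sum.inr (i, none)))) (ht (Sum.inr (Sum.inr (i, none))))
      (hsc i none) hz
    simpa [phiL, phiF, mul_assoc] using this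
  · have := abs_comb_le (ht (Sum.inr (Sum.inr (i, none)))) (ht (Sum.inr (Sum.inr (i, some j))))
      (hsc i (some j)) (hpow 6)
    simpa [phiL, phiF, mul_assoc] using this

theorem phi_inv (p : Par → ℝ) (hp : ∀ j, |wb p j| ≤ 1) {ε : ℝ} (h0 : 0 < ε) (h1 : ε ≤ 1)
    (δ : Par → ℝ) : ∃ t, phiL p ε t = δ ∧ ‖t‖ ≤ 256 / (2 * ε) ^ 7 * ‖δ‖ := by
  have hsc : ∀ i, sc ε i ≠ 0 := fun i => by
    cases i with
    | none => exact (pow_pos h0 2).ne'
    | some i => exact h0.ne'
  refine ⟨Sum.elim (fun i => (ε ^ 7)⁻¹ * δ (Sum.inl i) +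
      -(ε ^ 3)⁻¹ * δ (Sum.inr (Sum.inr (some i, none))))
    (Sum.elim (fun j => ε⁻¹ * δ (Sum.inr (Sum.inl j))) fun ij => Option.elim ij.2
      ((sc ε ij.1)⁻¹ * δ (Sum.inr (Sum.inr ij))) fun j => (ε ^ 7)⁻¹ * δ (Sum.inr (Sum.inr ij)) +
        -((ε ^ 7)⁻¹ * wb p (some j)) * δ (Sum.inr (Sum.inr (ij.1, none)))), ?_, ?_⟩
  · funext k
    have := hsc
    rcases k with i | j | ⟨i, _ | j⟩
    · simp [phiL, phiF, sc]; field_simp; ring
    · simp [phiL, phiF]; field_simp
    · have := hsc i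
      simp [phiL, phiF, wb]; field_simp
    · have := hsc i
      simp [phiL, phiF]; field_simp; ring
  · have ht : ∀ k, |δ k| ≤ ‖δ‖ := fun k => norm_le_pi_norm δ k
    have hpow : ∀ m : ℕ, m ≤ 7 → |(ε ^ m)⁻¹| ≤ (ε ^ 7)⁻¹ := fun m hm => by
      rw [abs_of_pos (by positivity)]
      exact inv_anti₀ (by positivity) (pow_le_pow_of_le_one h0.le h1 hm)
    have hz : |(0 : ℝ)| ≤ (ε ^ 7)⁻¹ := by rw [abs_zero]; positivity
    have hc : 256 / (2 * ε) ^ 7 = 2 * (ε ^ 7)⁻¹ := by field_simp; norm_num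
    rw [hc, pi_norm_le_iff_of_nonneg (by positivity)]
    intro k
    rcases k with i | j | ⟨i, _ | j⟩
    · exact abs_comb_le (ht _) (ht _) (hpow 7 le_rfl) (by rw [abs_neg]; exact hpow 3 (by norm_num))
    · have := abs_comb_le (ht (Sum.inr (Sum.inl j))) (ht (Sum.inr (Sum.inl j)))
        (hpow 1 (by norm_num)) hz
      simpa using this
    · have h2 : |(sc ε i)⁻¹| ≤ (ε ^ 7)⁻¹ := by
        cases i with
        | none => exact hpow 2 (by norm_num)
        | some i => simpa [sc] using hpow 1 (by norm_num)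
      have := abs_comb_le (ht (Sum.inr (Sum.inr (i, none)))) (ht (Sum.inr (Sum.inr (i, none))))
        h2 hz
      simpa using this
    · refine abs_comb_le (ht _) (ht _) (hpow 7 le_rfl) ?_
      rw [abs_neg, abs_mul]
      exact (mul_le_of_le_one_right (abs_nonneg _) (hp _)).trans (hpow 7 le_rfl)

/-- The final substitution. -/
def psi (x y : Fin 3 → ℝ) : Par → ℝ :=
  Sum.elim (fun _ => 0) (Sum.elim y fun ij =>
    Option.elim ij.2 (Option.elim ij.1 (∑ i, x i * y i) x) fun _ => 0)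

theorem limit_eq (p : Par → ℝ) (x y : Fin 3 → ℝ) :
    ∑ k, Qb (EE p (psi x y) k 0) (EE p (psi x y) k 0) =
      choi (5 * ∑ j : Fin 3, p (Sum.inr (Sum.inl j)) ^ 2) x y := by
  have h1 : ∀ i₀, EE p (psi x y) (Sum.inl i₀) 0 = 0 := fun i₀ => by
    funext i j; cases i <;> simp [EE, zt]
  have h2 : ∀ j₀, EE p (psi x y) (Sum.inr (some j₀)) 0 = 0 := fun j₀ => by
    funext i j; cases i <;> simp [EE, zt]
  rw [Fintype.sum_sum_type, Fintype.sum_option (f := fun k => Qb (EE p (psi x y) (Sum.inr k) 0) _)]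
  simp only [h1, h2, map_zero, Finset.sum_const_zero, zero_add, add_zero]
  have e1 : (0 : Fin 3) + 1 = 1 := rfl
  have e2 : (1 : Fin 3) + 1 = 2 := rfl
  have e3 : (2 : Fin 3) + 1 = 0 := rfl
  simp [Qb_apply, Qf, tr3, EE, psi, ta, wb, choi, Fin.sum_univ_three, e1, e2, e3]
  ring

theorem not_shadow : ¬ IsSpectrahedralShadow (hypCone (poly TT) (ee : Var Om Bi Gi → ℝ)) := by
  intro hK
  choose l hl using fun i : Var Om Bi Gi => ell_poly (Pi.single i 1)
  have hell : ∀ p x, ∑ i, x i * eval p (l i) = ell (vp p) (Rp p) x := by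
    intro p x
    rw [lin_expand (ell_lin _ _) x]
    simp only [hl, smul_eq_mul]
  obtain ⟨p, hp, hmain⟩ := obstruction _ hK l (Metric.ball 0 (1 / 10)) Metric.isOpen_ball
    ⟨0, Metric.mem_ball_self (by norm_num)⟩ (fun p _ x hx => by
      rw [hell]; exact ell_nonneg _ _ x hx)
  have hp' : ∀ k, |p k| < 1 / 10 := fun k =>
    (norm_le_pi_norm p k).trans_lt (mem_ball_zero_iff.1 hp)
  have hwb : ∀ j, |wb p j| ≤ 1 := fun j => by
    cases j with
    | none => simp [wb]
    | some j => exact (hp' _).le.trans (by norm_num)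
  let ε : ℕ → ℝ := fun n => 1 / 2 * (1 / ((n : ℝ) + 1))
  have hε0 : ∀ n, 0 < ε n := fun n => by positivity
  have hε1 : ∀ n, 2 * ε n ≤ 1 := fun n => by
    have : 1 / ((n : ℝ) + 1) ≤ 1 := by
      rw [div_le_one (by positivity)]
      linarith [Nat.cast_nonneg (α := ℝ) n]
    simp only [ε]
    linarith
  have hε : Tendsto ε atTop (𝓝 0) := by
    have := (tendsto_one_div_add_atTop_nhds_zero_nat (𝕜 := ℝ)).const_mul (1 / 2)
    rwa [mul_zero] at this
  choose x hx hxe using fun n => exists_primal (yp p) (Um p (ε n)) (Bm p (ε n))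
    (Um_mul p (hε0 n).ne')
  obtain ⟨N, H, hH⟩ := hmain 7 256 (fun n => 2 * ε n) (fun n => phiL p (ε n)) x
    (fun n => ((ε n ^ 4)⁻¹) ^ 2) (fun t => ∑ k, Qb (EE p t k 0) (EE p t k 0))
    (fun n => by linarith [hε0 n]) hε1 (by simpa using hε.const_mul 2)
    (fun n t => phi_bound p hwb (hε0 n) (by linarith [hε0 n, hε1 n]) t) (by norm_num)
    (fun n δ => phi_inv p hwb (hε0 n) (by linarith [hε0 n, hε1 n]) δ) hx
    (fun n => sq_nonneg _) (fun t => by
      have h1 : Tendsto (fun n => ∑ k, Qb (EE p t k (ε n)) (EE p t k (ε n))) atTop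
          (𝓝 (∑ k, Qb (EE p t k 0) (EE p t k 0))) :=
        tendsto_finsetSum _ fun k _ => ((Qb_cont.comp (EE_cont p t k)).tendsto 0).comp hε
      refine h1.congr fun n => ?_
      rw [hell, hxe, Finset.mul_sum]
      refine Finset.sum_congr rfl fun k _ => ?_
      have h2 := slack_term p t (hε0 n).ne' k
      change _ = _ * Qb (Xi _ _ (vp (p + phiF p (ε n) t)) - Rt (Rp (p + phiF p (ε n) t))
        (vp (p + phiF p (ε n) t)) _) (Xi _ _ (vp (p + phiF p (ε n) t)) -
          Rt (Rp (p + phiF p (ε n) t)) (vp (p + phiF p (ε n) t)) _)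
      rw [h2]
      have h3 := (hε0 n).ne'
      simp only [map_smul, LinearMap.smul_apply, smul_eq_mul]
      field_simp)
  refine choi_not_sos (5 * ∑ j : Fin 3, p (Sum.inr (Sum.inl j)) ^ 2) ?_
    (fun k x y => eval (psi x y) (H k)) (fun k y => IsPoly.comp _ ?_)
    (fun k x => IsPoly.comp _ ?_) (fun x y => by rw [hH, limit_eq])
  · have h : ∀ j : Fin 3, p (Sum.inr (Sum.inl j)) ^ 2 ≤ 1 / 100 := fun j => by
      have := hp' (Sum.inr (Sum.inl j))
      rw [← sq_abs]
      nlinarith [abs_nonneg (p (Sum.inr (Sum.inl j)))]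
    rw [Fin.sum_univ_three]
    linarith [h 0, h 1, h 2]
  · rintro (i | j | ⟨_ | i, _ | j⟩)
    · exact IsPoly.const 0
    · exact IsPoly.const _
    · exact IsPoly.sum Finset.univ fun i _ => (IsPoly.coord i).mul (IsPoly.const (y i))
    · exact IsPoly.const 0
    · exact IsPoly.coord i
    · exact IsPoly.const 0
  · rintro (i | j | ⟨_ | i, _ | j⟩)
    · exact IsPoly.const 0
    · exact IsPoly.coord j
    · exact IsPoly.sum Finset.univ fun i _ => (IsPoly.const (x i)).mul (IsPoly.coord i)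
    · exact IsPoly.const 0
    · exact IsPoly.const _
    · exact IsPoly.const 0

theorem transfer {σ τ : Type} [Fintype σ] [Fintype τ] (f : σ ≃ τ) (p : MvPolynomial σ ℝ)
    (e : σ → ℝ) (h1 : IsHyperbolic p e) (h2 : ¬ IsSpectrahedralShadow (hypCone p e)) :
    IsHyperbolic (rename f p) (e ∘ f.symm) ∧
      ¬ IsSpectrahedralShadow (hypCone (rename f p) (e ∘ f.symm)) := by
  obtain ⟨⟨d, hd⟩, hpos, hreal⟩ := h1
  refine ⟨⟨⟨d, hd.rename_isHomogeneous⟩, ?_, fun x z hz => hreal (x ∘ f) z ?_⟩, ?_⟩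
  · rw [eval_rename]
    simpa [Function.comp_assoc] using hpos
  · rw [aeval_rename] at hz
    simpa [Function.comp_def] using hz
  · rintro ⟨N, a, A₀, A, B, s0, sA, sB, hS⟩
    refine h2 ⟨N, a, A₀, fun i => A (f i), B, s0, fun i => sA _, sB, ?_⟩
    ext x
    have h3 : x ∈ hypCone p e ↔ x ∘ f.symm ∈ hypCone (rename f p) (e ∘ f.symm) := by
      simp [hypCone, eval_rename, Function.comp_def]
    have h4 : ∑ i, (x ∘ f.symm) i • A i = ∑ i, x i • A (f i) := by
      rw [← Equiv.sum_comp f]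
      simp
    rw [h3, hS, Set.mem_ofPred_eq, Set.mem_ofPred_eq, h4]

theorem exists_hyperbolic_not_shadow : ∃ (n : ℕ) (p : MvPolynomial (Fin n) ℝ) (e : Fin n → ℝ),
    IsHyperbolic p e ∧ ¬ IsSpectrahedralShadow (hypCone p e) :=
  ⟨_, _, _, transfer (Fintype.equivFin (Var Om Bi Gi)) _ _
    (poly_hyperbolic TT TT_symm Phi_psd) not_shadow⟩

end Vale.Agent.P256
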