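import Vale.Agent.P256.Defs
import Vale.Agent.P256.Formal
import Vale.Agent.P256.Duality
import Vale.Agent.P256.Blowup

/-! The obstruction to semidefinite lifts: blow-up limits of slack functions at a generic point
of a polynomial family of dual functionals are sums of squares. -/

namespace Vale.Agent.P256

open MvPolynomial Filter Topology Matrix

open scoped MatrixOrder in
theorem psd_factor {n : Type} [Fintype n] [DecidableEq n] {M : Matrix n n ℝ}
    (hM : M.PosSemidef) : ∃ B : Matrix n n ℝ, M = Bᵀ * B := by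
  obtain ⟨B, hB⟩ := CStarAlgebra.nonneg_iff_eq_star_mul_self.mp hM.nonneg
  exact ⟨B, by rw [hB, star_eq_conjTranspose, conjTranspose_eq_transpose_of_trivial]⟩

theorem obstruction {σ ι : Type} [Fintype σ] [Fintype ι] [DecidableEq ι] (K : Set (σ → ℝ))
    (hK : IsSpectrahedralShadow K) (l : σ → MvPolynomial ι ℝ) (O : Set (ι → ℝ)) (hO : IsOpen O)
    (hne : O.Nonempty) (hl : ∀ p ∈ O, ∀ x ∈ K, 0 ≤ ∑ i, x i * eval p (l i)) :
    ∃ p ∈ O, ∀ (M : ℕ) (c₀ : ℝ) (ε : ℕ → ℝ) (φ : ℕ → (ι → ℝ) →ₗ[ℝ] (ι → ℝ)) (x : ℕ → σ → ℝ)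
      (c : ℕ → ℝ) (B : (ι → ℝ) → ℝ), (∀ n, 0 < ε n) → (∀ n, ε n ≤ 1) →
      Tendsto ε atTop (𝓝 0) → (∀ n t, ‖φ n t‖ ≤ ε n * ‖t‖) → 1 ≤ c₀ →
      (∀ n δ, ∃ t, φ n t = δ ∧ ‖t‖ ≤ c₀ / ε n ^ M * ‖δ‖) → (∀ n, x n ∈ K) → (∀ n, 0 ≤ c n) →
      (∀ t, Tendsto (fun n => c n * ∑ i, x n i * eval (p + φ n t) (l i)) atTop (𝓝 (B t))) →
      ∃ (N : ℕ) (H : Option (Fin N × Fin N) → MvPolynomial ι ℝ),
        ∀ t, ∑ k, eval t (H k) ^ 2 = B t := by
  classical
  obtain ⟨N, a, A₀, A, Bm, -, -, -, rfl⟩ := hK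
  let pen : (σ → ℝ) → (Fin a → ℝ) → Matrix (Fin N) (Fin N) ℝ :=
    fun x u => A₀ + ∑ i, x i • A i + ∑ j, u j • Bm j
  let G : {q : (σ → ℝ) × (Fin a → ℝ) // (pen q.1 q.2).PosSemidef} →
      MvPolynomial (ι ⊕ Option (Fin N × Fin N)) ℝ := fun q =>
    ∑ i, C (q.1.1 i) * rename Sum.inl (l i) -
      (∑ a, ∑ b, (∑ k, X (Sum.inr (some (k, a))) * X (Sum.inr (some (k, b)))) *
        C (pen q.1.1 q.1.2 a b) + X (Sum.inr none) ^ 2)
  obtain ⟨p, hpO, ch, hch⟩ := formal_solution G O hO hne (by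
    intro p hp
    let L : (ℝ × (σ → ℝ) × (Fin a → ℝ)) →ₗ[ℝ] Matrix (Fin N) (Fin N) ℝ :=
      (LinearMap.toSpanSingleton ℝ _ A₀).coprod
        ((Fintype.linearCombination ℝ A).coprod (Fintype.linearCombination ℝ Bm))
    have hL : ∀ q : ℝ × (σ → ℝ) × (Fin a → ℝ), q.1 = 1 → L q = pen q.2.1 q.2.2 := by
      rintro ⟨t, x, u⟩ ht
      simp only at ht
      simp [L, pen, ht, Fintype.linearCombination_apply, add_assoc]
    let lam : (ℝ × (σ → ℝ) × (Fin a → ℝ)) →ₗ[ℝ] ℝ :=
      (Fintype.linearCombination ℝ fun i => eval p (l i)).comp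
        ((LinearMap.fst ℝ _ _).comp (LinearMap.snd ℝ _ _))
    have hlam : ∀ q : ℝ × (σ → ℝ) × (Fin a → ℝ), lam q = ∑ i, q.2.1 i * eval p (l i) := by
      intro q
      simp [lam, Fintype.linearCombination_apply]
    obtain ⟨Y, c, hY, hc, hYc⟩ := sdp_dual L (LinearMap.fst ℝ _ _) lam (by
      intro q h1 h2
      rw [hlam]
      rw [hL q h1] at h2
      exact hl p hp _ ⟨_, h2⟩)
    obtain ⟨Cm, rfl⟩ := psd_factor hY
    refine ⟨fun o => Option.elim o (Real.sqrt c) fun ka => Cm ka.1 ka.2, ?_⟩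
    rintro ⟨⟨x, u⟩, hq⟩
    have h1 := hYc (1, x, u) rfl (by rw [hL _ rfl]; exact hq)
    rw [hL _ rfl, hlam] at h1
    have h2 : ∀ i, eval (Sum.elim p fun o : Option (Fin N × Fin N) =>
        Option.elim o (Real.sqrt c) fun ka => Cm ka.1 ka.2)
        (rename Sum.inl (l i)) = eval p (l i) := fun i => by
      rw [eval_rename]; rfl
    simp only [G, map_sub, map_sum, map_mul, map_add, map_pow, eval_C, eval_X, h2, Sum.elim_inr,
      Option.elim_some, Option.elim_none, Real.sq_sqrt hc]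
    simp only at h1
    rw [h1]
    simp [mul_apply])
  refine ⟨p, hpO, fun M c₀ ε φ x c B hε0 hε1 hε hφ hc₀ hψ hx hc hB => ⟨N, ?_⟩⟩
  choose u hu using hx
  have hfac := fun n => psd_factor (hu n)
  choose Dm hDm using hfac
  let sh : MvPolynomial ι ℝ →ₐ[ℝ] MvPolynomial ι ℝ := aeval fun i => C (p i) + X i
  have hsh : ∀ q, ((sh q : MvPolynomial ι ℝ) : MvPowerSeries ι ℝ) = aeval (shiftVar p) q := by
    intro q
    have : (coeToMvPowerSeries.algHom ℝ).comp sh = aeval (shiftVar p) := by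
      ext1 i
      simp [sh, shiftVar]
    have h2 := congrArg (fun f => f q) this
    simpa using h2
  have hev : ∀ q δ, eval δ (sh q) = eval (p + δ) q := by
    intro q δ
    have := eval₂Hom_bind₁ (RingHom.id ℝ) δ (fun i => C (p i) + X i) q
    refine this.trans ?_
    change eval _ q = _
    congr 2
    funext i
    simp
  refine blowup ch (Finset.univ.sup fun i => (sh (l i)).totalDegree) M c₀ ε hε0 hε1 hε φ hφ hc₀ hψ
    (fun n => c n • ∑ i, x n i • sh (l i)) (fun n => ?_)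
    (fun n k m => Real.sqrt (c n) * Option.elim k (if m = none then 1 else 0) fun kl =>
      Option.elim m 0 fun ka => if ka.1 = kl.1 then Dm n kl.2 ka.2 else 0) (fun n => ?_) B
    (fun t => ?_)
  · refine (totalDegree_smul_le _ _).trans ((totalDegree_finsetSum _ _).trans ?_)
    exact Finset.sup_mono_fun fun i _ => totalDegree_smul_le _ _
  · have h1 := hch ⟨(x n, u n), hu n⟩
    have h2 : ∀ i, aeval (Sum.elim (shiftVar p) ch) (rename Sum.inl (l i)) =
        aeval (shiftVar p) (l i) := fun i => by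
      rw [aeval_rename]; rfl
    have h3 : pen (x n) (u n) = (Dm n)ᵀ * Dm n := hDm n
    simp only [G, map_sub, map_sum, map_mul, map_add, map_pow, aeval_C, aeval_X, h2,
      Sum.elim_inr, sub_eq_zero, h3, mul_apply, transpose_apply] at h1
    have h4 : ((c n • ∑ i, x n i • sh (l i) : MvPolynomial ι ℝ) : MvPowerSeries ι ℝ) =
        c n • ∑ i, algebraMap ℝ _ (x n i) * aeval (shiftVar p) (l i) := by
      have hco : ∀ q : MvPolynomial ι ℝ, (q : MvPowerSeries ι ℝ) =
          coeToMvPowerSeries.algHom ℝ q := fun q => by simp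
      simp only [← Algebra.smul_def, ← hsh, hco, map_smul, map_sum]
    rw [h4, h1]
    simp only [mul_smul, ← Finset.smul_sum, smul_pow, Real.sq_sqrt (hc n)]
    congr 1
    rw [Fintype.sum_option, add_comm]
    congr 1
    · simp
    · simp only [Option.elim, Fintype.sum_option, zero_smul, zero_add, Fintype.sum_prod_type,
        ite_smul]
      have h5 : ∀ k l : Fin N, (∑ k' : Fin N, ∑ a : Fin N,
          if k' = k then Dm n l a • ch (some (k', a)) else 0) =
          ∑ a, Dm n l a • ch (some (k, a)) := by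
        intro k l
        rw [Finset.sum_eq_single k] <;> simp +contextual
      simp only [h5]
      simp only [sq, Finset.sum_mul, Finset.mul_sum, Algebra.smul_def]
      calc _ = ∑ a, ∑ b, ∑ l, ∑ k, ch (some (k, a)) * ch (some (k, b)) *
            (algebraMap ℝ _ (Dm n l a) * algebraMap ℝ _ (Dm n l b)) := rfl
        _ = ∑ a, ∑ l, ∑ k, ∑ b, ch (some (k, a)) * ch (some (k, b)) *
            (algebraMap ℝ _ (Dm n l a) * algebraMap ℝ _ (Dm n l b)) := by
          refine Finset.sum_congr rfl fun a _ => ?_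
          rw [Finset.sum_comm]
          exact Finset.sum_congr rfl fun l _ => Finset.sum_comm
        _ = ∑ l, ∑ k, ∑ a, ∑ b, ch (some (k, a)) * ch (some (k, b)) *
            (algebraMap ℝ _ (Dm n l a) * algebraMap ℝ _ (Dm n l b)) := by
          rw [Finset.sum_comm]
          exact Finset.sum_congr rfl fun l _ => Finset.sum_comm
        _ = _ := by
          rw [Finset.sum_comm]
          refine Finset.sum_congr rfl fun k _ => Finset.sum_congr rfl fun l _ => ?_
          rw [Finset.sum_comm]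
          exact Finset.sum_congr rfl fun a _ => Finset.sum_congr rfl fun b _ => by ring
  · refine (hB t).congr fun n => ?_
    simp [hev]

end Vale.Agent.P256
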