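import Vale.Agent.P256.Hyper
import Vale.Agent.P256.Choi
import Vale.Agent.P256.Obstruction

/-! The concrete cone and a family of linear functionals that are nonnegative on it. -/

namespace Vale.Agent.P256

open MvPolynomial Filter Topology Matrix

theorem lin_expand {n E : Type} [Fintype n] [DecidableEq n] [AddCommGroup E] [Module ℝ E]
    {f : (n → ℝ) → E} (hf : IsLinearMap ℝ f) (x : n → ℝ) :
    f x = ∑ i, x i • f (Pi.single i 1) := by
  have h1 : ∀ x, f x = hf.mk' f x := fun _ => rfl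
  simp only [h1]
  conv_lhs => rw [pi_eq_sum_univ' x]
  simp only [map_sum, map_smul]

theorem bil_expand {n : Type} [Fintype n] [DecidableEq n]
    {f g : (n → ℝ) → Om → Om → ℝ} (hf : IsLinearMap ℝ f) (hg : IsLinearMap ℝ g) (x x' : n → ℝ) :
    Qb (f x) (g x') = ∑ a, ∑ b, x a * x' b * Qb (f (Pi.single a 1)) (g (Pi.single b 1)) := by
  rw [lin_expand hf x, lin_expand hg x']
  simp only [map_sum, map_smul, LinearMap.sum_apply, LinearMap.smul_apply, smul_eq_mul,
    Finset.mul_sum]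
  rw [Finset.sum_comm]
  exact Finset.sum_congr rfl fun a _ => Finset.sum_congr rfl fun b _ => by ring

theorem sum4_comm {a b c d : Type} [Fintype a] [Fintype b] [Fintype c] [Fintype d]
    (f : a → b → c → d → ℝ) :
    ∑ i, ∑ j, ∑ k, ∑ l, f i j k l = ∑ k, ∑ l, ∑ i, ∑ j, f i j k l := by
  calc _ = ∑ i, ∑ k, ∑ l, ∑ j, f i j k l := by
        refine Finset.sum_congr rfl fun i _ => ?_
        rw [Finset.sum_comm]
        exact Finset.sum_congr rfl fun k _ => Finset.sum_comm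
    _ = _ := by
        rw [Finset.sum_comm]
        exact Finset.sum_congr rfl fun k _ => Finset.sum_comm

theorem gram {n : Type} [Fintype n] [DecidableEq n]
    {f g : (n → ℝ) → Om → Om → ℝ} (hf : IsLinearMap ℝ f) (hg : IsLinearMap ℝ g)
    (U V : Matrix n n ℝ) :
    ∑ i, ∑ j, (U * Vᵀ) i j * Qb (f (Pi.single i 1)) (g (Pi.single j 1)) =
      ∑ k, Qb (f fun i => U i k) (g fun j => V j k) := by
  simp only [bil_expand hf hg (fun i => U i _), mul_apply, transpose_apply, Finset.sum_mul]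
  calc _ = ∑ i, ∑ k, ∑ j, U i k * V j k * Qb (f (Pi.single i 1)) (g (Pi.single j 1)) :=
        Finset.sum_congr rfl fun i _ => Finset.sum_comm
    _ = _ := Finset.sum_comm

/-- Index set of the matrix `X`. -/
abbrev Bi := Om ⊕ Om
/-- Index set of the matrix `Z`. -/
abbrev Gi := Om ⊕ Fin 3

def zeta (y : Om → ℝ) (v : Gi → ℝ) : Om → ℝ :=
  fun i => Option.elim i 0 fun i => y none * v (Sum.inr i) - v (Sum.inl none) * y (some i)

def Xi (y : Om → ℝ) (u : Bi → ℝ) (v : Gi → ℝ) : Om → Om → ℝ :=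
  fun i j => y none * u (Sum.inl i) * v (Sum.inl j) + zeta y v i * u (Sum.inr j)

theorem Xi_lin1 (u : Bi → ℝ) (v : Gi → ℝ) : IsLinearMap ℝ fun y => Xi y u v :=
  ⟨fun _ _ => by funext i j; cases i <;> simp [Xi, zeta] <;> ring,
    fun _ _ => by funext i j; cases i <;> simp [Xi, zeta] <;> ring⟩

theorem Xi_lin2 (y : Om → ℝ) (v : Gi → ℝ) : IsLinearMap ℝ fun u => Xi y u v :=
  ⟨fun _ _ => by funext i j; simp [Xi]; ring, fun _ _ => by funext i j; simp [Xi]; ring⟩

theorem Xi_lin3 (y : Om → ℝ) (u : Bi → ℝ) : IsLinearMap ℝ fun v => Xi y u v :=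
  ⟨fun _ _ => by funext i j; cases i <;> simp [Xi, zeta] <;> ring,
    fun _ _ => by funext i j; cases i <;> simp [Xi, zeta] <;> ring⟩

/-- The coefficient tensor of the triquadratic form. -/
def TT (s t : Om × Bi × Gi) : ℝ :=
  Qb (Xi (Pi.single s.1 1) (Pi.single s.2.1 1) (Pi.single s.2.2 1))
    (Xi (Pi.single t.1 1) (Pi.single t.2.1 1) (Pi.single t.2.2 1))

theorem TT_symm (s t : Om × Bi × Gi) : TT s t = TT t s := Qb_symm _ _

theorem Phi_entry (y : Om → ℝ) (W : Matrix Bi Bi ℝ) (k l : Gi) :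
    Phi TT y W k l = ∑ i, ∑ j, W i j *
      Qb (Xi y (Pi.single i 1) (Pi.single k 1)) (Xi y (Pi.single j 1) (Pi.single l 1)) := by
  rw [Phi, sum4_comm]
  refine Finset.sum_congr rfl fun i _ => Finset.sum_congr rfl fun j _ => ?_
  rw [bil_expand (Xi_lin1 _ _) (Xi_lin1 _ _) y y]
  simp only [Finset.mul_sum, TT, smul_eq_mul]
  exact Finset.sum_congr rfl fun a _ => Finset.sum_congr rfl fun b _ => by ring

theorem Phi_quad (y : Om → ℝ) (W : Matrix Bi Bi ℝ) (v : Gi → ℝ) :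
    v ⬝ᵥ Phi TT y W *ᵥ v =
      ∑ i, ∑ j, W i j * Qb (Xi y (Pi.single i 1) v) (Xi y (Pi.single j 1) v) := by
  simp only [dotProduct, mulVec, Phi_entry, Finset.mul_sum, Finset.sum_mul]
  rw [sum4_comm]
  refine Finset.sum_congr rfl fun i _ => Finset.sum_congr rfl fun j _ => ?_
  rw [bil_expand (Xi_lin3 _ _) (Xi_lin3 _ _) v v]
  simp only [Finset.mul_sum]
  exact Finset.sum_congr rfl fun a _ => Finset.sum_congr rfl fun b _ => by ring

theorem Phi_psd (y : Om → ℝ) (W : Matrix Bi Bi ℝ) (hW : W.PosSemidef) :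
    (Phi TT y W).PosSemidef := by
  refine psd_of (Phi_symm TT TT_symm y (psd_symm hW)) fun v => ?_
  obtain ⟨B, rfl⟩ := psd_factor hW
  rw [Phi_quad]
  have := gram (Xi_lin2 y v) (Xi_lin2 y v) Bᵀ Bᵀ
  rw [transpose_transpose] at this
  rw [this]
  exact Finset.sum_nonneg fun k _ =>
    two_positive (fun i => y none * Bᵀ (Sum.inl i) k) (fun j => v (Sum.inl j)) (zeta y v)
      (fun j => Bᵀ (Sum.inr j) k) rfl

def Rt (R : Matrix Om Bi ℝ) (v : Gi → ℝ) (u : Bi → ℝ) : Om → Om → ℝ :=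
  fun i j => (R *ᵥ u) i * v (Sum.inl j)

theorem Rt_lin (R : Matrix Om Bi ℝ) (v : Gi → ℝ) : IsLinearMap ℝ (Rt R v) :=
  ⟨fun _ _ => by funext i j; simp [Rt, mulVec_add]; ring,
    fun _ _ => by funext i j; simp [Rt, mulVec_smul]; ring⟩

/-- The dual functionals. -/
def ell (v : Gi → ℝ) (R : Matrix Om Bi ℝ) (x : Var Om Bi Gi → ℝ) : ℝ :=
  v ⬝ᵥ Zm x *ᵥ v - 2 * ∑ j, Qb (Xi (yv x) (Pi.single j 1) v) (Rt R v (Pi.single j 1)) +
    ∑ i, ∑ j, Xm x i j * Qb (Rt R v (Pi.single i 1)) (Rt R v (Pi.single j 1))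

theorem ell_lin (v : Gi → ℝ) (R : Matrix Om Bi ℝ) : IsLinearMap ℝ (ell v R) := by
  constructor
  · intro x x'
    have h1 : Zm (x + x') = Zm x + Zm x' := rfl
    have h2 : yv (x + x') = yv x + yv x' := rfl
    have h3 : ∀ i j, Xm (x + x') i j = Xm x i j + Xm x' i j := fun _ _ => rfl
    simp only [ell, h1, h2, h3, add_mulVec, dotProduct_add, (Xi_lin1 _ _).map_add, map_add,
      LinearMap.add_apply, Finset.sum_add_distrib, add_mul]
    ring
  · intro c x
    have h1 : Zm (c • x) = c • Zm x := rfl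
    have h2 : yv (c • x) = c • yv x := rfl
    have h3 : ∀ i j, Xm (c • x) i j = c * Xm x i j := fun _ _ => rfl
    simp only [ell, h1, h2, h3, smul_mulVec, dotProduct_smul, (Xi_lin1 _ _).map_smul, map_smul,
      LinearMap.smul_apply, smul_eq_mul, mul_assoc, ← Finset.mul_sum]
    ring

theorem ell_eq (v : Gi → ℝ) (R : Matrix Om Bi ℝ) (x : Var Om Bi Gi → ℝ) (U B : Matrix Bi Bi ℝ)
    (hX : Xm x = Bᵀ * B) (hUB : U * B = 1) :
    ell v R x = v ⬝ᵥ (Zm x - Phi TT (yv x) (U * Uᵀ)) *ᵥ v +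
      ∑ k, Qb (Xi (yv x) (fun i => U i k) v - Rt R v (fun j => B k j))
        (Xi (yv x) (fun i => U i k) v - Rt R v (fun j => B k j)) := by
  have h1 := gram (Xi_lin2 (yv x) v) (Xi_lin2 (yv x) v) U U
  have h2 := gram (Xi_lin2 (yv x) v) (Rt_lin R v) U Bᵀ
  have h3 := gram (Rt_lin R v) (Rt_lin R v) Bᵀ Bᵀ
  rw [transpose_transpose] at h2 h3
  rw [hUB] at h2
  simp only [one_apply, ite_mul, one_mul, zero_mul, Finset.sum_ite_eq, Finset.mem_univ, if_true,
    transpose_apply] at h2 h3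
  rw [ell, hX, h2, h3, sub_mulVec, dotProduct_sub, Phi_quad, h1]
  simp only [map_sub, LinearMap.sub_apply, Finset.sum_sub_distrib,
    Qb_symm (Rt R v _) (Xi _ _ _)]
  ring

theorem inv_eq_of_factor {n : Type} [Fintype n] [DecidableEq n] {U B : Matrix n n ℝ}
    (hUB : U * B = 1) : (Bᵀ * B)⁻¹ = U * Uᵀ := by
  apply inv_eq_left_inv
  have h1 : Uᵀ * Bᵀ = 1 := by rw [← transpose_mul, mul_eq_one_comm.1 hUB, transpose_one]
  rw [Matrix.mul_assoc, ← Matrix.mul_assoc Uᵀ, h1, Matrix.one_mul, hUB]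

theorem ell_nonneg (v : Gi → ℝ) (R : Matrix Om Bi ℝ) (x : Var Om Bi Gi → ℝ)
    (hx : x ∈ hypCone (poly TT) ee) : 0 ≤ ell v R x := by
  have key : ∀ τ : ℝ, 0 ≤ τ → 0 ≤ ell v R ee + τ * ell v R x := by
    intro τ hτ
    obtain ⟨h1, h2⟩ := of_mem_cone TT TT_symm x hx τ hτ
    obtain ⟨B, hB⟩ := psd_factor h1.posSemidef
    have hdet : IsUnit B.det := by
      have := h1.det_pos.ne'
      rw [hB, det_mul] at this
      exact (right_ne_zero_of_mul this).isUnit
    have hUB := nonsing_inv_mul B hdet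
    rw [← smul_eq_mul, ← (ell_lin v R).map_smul, ← (ell_lin v R).map_add,
      ell_eq v R _ B⁻¹ B hB hUB]
    rw [hB, inv_eq_of_factor hUB] at h2
    refine add_nonneg (psd_nonneg h2 v) (Finset.sum_nonneg fun k _ => ?_)
    have := two_positive
      (fun i => yv (ee + τ • x) none * B⁻¹ (Sum.inl i) k - (R *ᵥ fun j => B k j) i)
      (fun j => v (Sum.inl j)) (zeta (yv (ee + τ • x)) v) (fun j => B⁻¹ (Sum.inr j) k) rfl
    have h3 : Xi (yv (ee + τ • x)) (fun i => B⁻¹ i k) v - Rt R v (fun j => B k j) = fun i j =>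
        (yv (ee + τ • x) none * B⁻¹ (Sum.inl i) k - (R *ᵥ fun j => B k j) i) * v (Sum.inl j) +
          zeta (yv (ee + τ • x)) v i * B⁻¹ (Sum.inr j) k := by
      funext i j
      simp only [Xi, Rt, Pi.sub_apply]
      ring
    rw [h3]
    exact this
  by_contra hneg
  push Not at hneg
  have h0 := key 0 le_rfl
  have h1 := key ((ell v R ee + 1) / (-ell v R x)) (div_nonneg (by linarith) (by linarith))
  have h3 : (ell v R ee + 1) / (-ell v R x) * ell v R x = -(ell v R ee + 1) := by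
    field_simp [hneg.ne]
  linarith

theorem exists_var (X : Matrix Bi Bi ℝ) (Z : Matrix Gi Gi ℝ) (y : Om → ℝ) (hX : X.IsSymm)
    (hZ : Z.IsSymm) : ∃ x : Var Om Bi Gi → ℝ, Xm x = X ∧ Zm x = Z ∧ yv x = y :=
  ⟨Sum.elim (Sym2.lift ⟨fun i j => X i j, fun i j => (hX.apply i j).symm⟩)
    (Sum.elim (Sym2.lift ⟨fun i j => Z i j, fun i j => (hZ.apply i j).symm⟩) y), rfl, rfl, rfl⟩

theorem exists_primal (y : Om → ℝ) (U B : Matrix Bi Bi ℝ) (hUB : U * B = 1) :
    ∃ x ∈ hypCone (poly TT) (ee : Var Om Bi Gi → ℝ), ∀ v R, ell v R x =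
      ∑ k, Qb (Xi y (fun i => U i k) v - Rt R v (fun j => B k j))
        (Xi y (fun i => U i k) v - Rt R v (fun j => B k j)) := by
  have hs : (Bᵀ * B).IsSymm := by rw [IsSymm, transpose_mul, transpose_transpose]
  have hs' : (U * Uᵀ).IsSymm := by rw [IsSymm, transpose_mul, transpose_transpose]
  obtain ⟨x, h1, h2, h3⟩ := exists_var (Bᵀ * B) (Phi TT y (U * Uᵀ)) y hs
    (Phi_symm TT TT_symm y hs')
  refine ⟨x, mem_cone TT Phi_psd x ?_ ?_, fun v R => ?_⟩
  · rw [h1]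
    have h4 : (Bᵀ * B).PosSemidef := by
      simpa using posSemidef_conjTranspose_mul_self B
    rw [h4.posDef_iff_det_ne_zero, det_mul, det_transpose]
    have h5 : B.det ≠ 0 := by
      have := congrArg det hUB
      rw [det_mul, det_one] at this
      exact right_ne_zero_of_mul_eq_one this
    exact mul_ne_zero h5 h5
  · rw [h1, h2, h3, inv_eq_of_factor hUB, sub_self]
    exact PosSemidef.zero
  · rw [ell_eq v R x U B h1 hUB, h2, h3, sub_self]
    simp

end Vale.Agent.P256
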